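import Vale.Agent.H17.KK.Pc

/-!
Fractional covers of the family of graphs containing a copy of a fixed graph `H`:
averaging a fractional cover over all vertex permutations, and the cover by the copies of a
subgraph of `H`.  Uses the counting library of `Vale.Agent.H17.KK`.
-/

namespace Vale.Agent.H9.GraphCover

open Classical Finset Vale.Agent.H17.KK

variable {n : ℕ}

/-- The number of copies of `H` whose edge set contains `S` is at most `n! x^|S|`, if the same
holds for the number of embeddings of every subgraph of `H`. -/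
lemma count_le (H : SimpleGraph (Fin n)) (x : ℝ) (hx0 : 0 ≤ x)
    (hx : ∀ F : SimpleGraph (Fin n), F ≤ H →
      (permCount H F : ℝ) ≤ 1 * (n.factorial : ℝ) * x ^ F.edgeSet.ncard)
    (S : Finset (Sym2 (Fin n))) :
    ∑ σ : Equiv.Perm (Fin n), (if S ⊆ ed (pm σ H) then (1 : ℝ) else 0) ≤
      (n.factorial : ℝ) * x ^ S.card := by
  have hall := permCount_le_all H x 1 hx0 zero_le_one hx
  by_cases hSg : S ⊆ ground n
  · have e1 : ∀ σ : Equiv.Perm (Fin n), (S ⊆ ed (pm σ H)) ↔ pm σ⁻¹ (gr S) ≤ H := by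
      intro σ
      rw [subset_ed_iff hSg]
      constructor
      · intro h
        have := pm_mono σ⁻¹ h
        rwa [pm_inv_cancel] at this
      · intro h
        have := pm_mono σ h
        rwa [pm_cancel_inv] at this
    have e2 : ∑ σ : Equiv.Perm (Fin n), (if S ⊆ ed (pm σ H) then (1 : ℝ) else 0) =
        ∑ σ : Equiv.Perm (Fin n), (if pm σ (gr S) ≤ H then (1 : ℝ) else 0) := by
      rw [← Equiv.sum_comp (Equiv.inv (Equiv.Perm (Fin n)))
        (fun σ => if pm σ (gr S) ≤ H then (1 : ℝ) else 0)]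
      apply Finset.sum_congr rfl
      intro σ _
      simp only [Equiv.inv_apply]
      by_cases h : S ⊆ ed (pm σ H)
      · rw [if_pos h, if_pos ((e1 σ).1 h)]
      · rw [if_neg h, if_neg (fun h' => h ((e1 σ).2 h'))]
    have e3 : ∑ σ : Equiv.Perm (Fin n), (if pm σ (gr S) ≤ H then (1 : ℝ) else 0) =
        (permCount H (gr S) : ℝ) := by
      unfold permCount
      rw [Nat.card_eq_fintype_card, Fintype.card_subtype, Finset.sum_boole]
    have hc : (gr S).edgeSet.ncard = S.card := by rw [← card_ed, ed_gr hSg]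
    rw [e2, e3, ← hc]
    have := hall (gr S)
    linarith
  · have h0 : ∀ σ : Equiv.Perm (Fin n), (if S ⊆ ed (pm σ H) then (1 : ℝ) else 0) = 0 := by
      intro σ
      rw [if_neg (fun h => hSg (h.trans (ed_subset_ground _)))]
    rw [Finset.sum_congr rfl (fun σ _ => h0 σ), Finset.sum_const_zero]
    exact mul_nonneg (Nat.cast_nonneg _) (pow_nonneg hx0 _)

/-- Averaging a fractional cover of the copies of `H` over all vertex permutations. -/
lemma frac_lower (H : SimpleGraph (Fin n)) (x : ℝ) (hx0 : 0 ≤ x)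
    (hx : ∀ F : SimpleGraph (Fin n), F ≤ H →
      (permCount H F : ℝ) ≤ 1 * (n.factorial : ℝ) * x ^ F.edgeSet.ncard)
    (g : Finset (Sym2 (Fin n)) → ℝ) (hg : ∀ S, 0 ≤ g S)
    (hcov : ∀ σ : Equiv.Perm (Fin n), 1 ≤ ∑ S ∈ (ed (pm σ H)).powerset, g S) :
    1 ≤ ∑ S : Finset (Sym2 (Fin n)), g S * x ^ S.card := by
  have h1 : (n.factorial : ℝ) ≤ ∑ σ : Equiv.Perm (Fin n), ∑ S : Finset (Sym2 (Fin n)),
      g S * (if S ⊆ ed (pm σ H) then (1 : ℝ) else 0) := by
    have hfac : (n.factorial : ℝ) = ∑ σ : Equiv.Perm (Fin n), (1 : ℝ) := by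
      rw [Finset.sum_const, Finset.card_univ, Fintype.card_perm, Fintype.card_fin]
      simp
    rw [hfac]
    apply Finset.sum_le_sum
    intro σ _
    refine (hcov σ).trans (le_of_eq ?_)
    simp only [mul_ite, mul_one, mul_zero]
    rw [← Finset.sum_filter]
    apply Finset.sum_congr _ (fun _ _ => rfl)
    ext S
    simp [Finset.mem_powerset]
  rw [Finset.sum_comm] at h1
  have h2 : ∀ S : Finset (Sym2 (Fin n)),
      ∑ σ : Equiv.Perm (Fin n), g S * (if S ⊆ ed (pm σ H) then (1 : ℝ) else 0) ≤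
        g S * ((n.factorial : ℝ) * x ^ S.card) := by
    intro S
    rw [← Finset.mul_sum]
    exact mul_le_mul_of_nonneg_left (count_le H x hx0 hx S) (hg S)
  have h3 := h1.trans (Finset.sum_le_sum (fun S _ => h2 S))
  have hfac : (0 : ℝ) < n.factorial := by exact_mod_cast Nat.factorial_pos n
  have h4 : (n.factorial : ℝ) * 1 ≤
      (n.factorial : ℝ) * ∑ S : Finset (Sym2 (Fin n)), g S * x ^ S.card := by
    rw [Finset.mul_sum, mul_one]
    refine h3.trans (le_of_eq (Finset.sum_congr rfl (fun S _ => by ring)))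
  exact le_of_mul_le_mul_left h4 hfac

/-- Halving the density at most halves the cost of the nonempty sets. -/
lemma half_cost (g : Finset (Sym2 (Fin n)) → ℝ) (hg : ∀ S, 0 ≤ g S) (p : ℝ) (hp0 : 0 ≤ p)
    (hcost : ∑ S : Finset (Sym2 (Fin n)), g S * p ^ S.card ≤ 1 / 2) :
    ∑ S : Finset (Sym2 (Fin n)), g S * (p / 2) ^ S.card ≤ 1 / 2 := by
  have hempty : g ∅ ≤ 1 / 2 := by
    have h := Finset.single_le_sum (f := fun S : Finset (Sym2 (Fin n)) => g S * p ^ S.card)
      (fun S _ => mul_nonneg (hg S) (pow_nonneg hp0 _)) (Finset.mem_univ ∅)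
    simp only [Finset.card_empty, pow_zero, mul_one] at h
    linarith
  have hterm : ∀ S : Finset (Sym2 (Fin n)), g S * (p / 2) ^ S.card ≤
      (1 / 2) * (g S * p ^ S.card) + (if S = ∅ then (1 / 2) * g ∅ else 0) := by
    intro S
    by_cases hS : S = ∅
    · subst hS
      simp only [Finset.card_empty, pow_zero, mul_one, if_true]
      linarith
    · rw [if_neg hS, add_zero]
      have hc : 1 ≤ S.card := Finset.card_pos.2 (Finset.nonempty_iff_ne_empty.2 hS)
      have h2 : (p / 2) ^ S.card ≤ (1 / 2) * p ^ S.card := by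
        rw [div_pow]
        have h2k : (2 : ℝ) ≤ 2 ^ S.card := by
          calc (2 : ℝ) = 2 ^ 1 := by norm_num
            _ ≤ 2 ^ S.card := pow_le_pow_right₀ (by norm_num) hc
        have hpk : 0 ≤ p ^ S.card := pow_nonneg hp0 _
        rw [div_le_iff₀ (by positivity)]
        nlinarith
      calc g S * (p / 2) ^ S.card ≤ g S * ((1 / 2) * p ^ S.card) :=
            mul_le_mul_of_nonneg_left h2 (hg S)
        _ = (1 / 2) * (g S * p ^ S.card) := by ring
  calc ∑ S : Finset (Sym2 (Fin n)), g S * (p / 2) ^ S.card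
      ≤ ∑ S : Finset (Sym2 (Fin n)),
          ((1 / 2) * (g S * p ^ S.card) + (if S = ∅ then (1 / 2) * g ∅ else 0)) :=
        Finset.sum_le_sum (fun S _ => hterm S)
    _ = (1 / 2) * ∑ S : Finset (Sym2 (Fin n)), g S * p ^ S.card + (1 / 2) * g ∅ := by
        rw [Finset.sum_add_distrib, ← Finset.mul_sum]
        simp
    _ ≤ 1 / 2 := by linarith

/-- The copies of `F` in the complete graph, as edge sets, cost exactly the expected count. -/
lemma fam_cost (F : SimpleGraph (Fin n)) (q : ℝ) :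
    ∑ T ∈ fam F, q ^ T.card = expCount q F := by
  have hcard : ∀ T ∈ fam F, q ^ T.card = q ^ F.edgeSet.ncard := by
    intro T hT
    obtain ⟨σ, rfl⟩ := mem_fam.1 hT
    rw [card_ed, pm_edge_ncard]
  have hinj : Function.Injective (ed : SimpleGraph (Fin n) → Finset (Sym2 (Fin n))) :=
    Function.LeftInverse.injective gr_ed
  have himg : ((fam F : Finset (Finset (Sym2 (Fin n)))) : Set (Finset (Sym2 (Fin n)))) =
      ed '' {G' : SimpleGraph (Fin n) | G' ≤ ⊤ ∧
        ∃ σ : Equiv.Perm (Fin n), G' = F.map σ.toEmbedding} := by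
    ext T
    simp only [Finset.mem_coe, mem_fam, Set.mem_image, Set.mem_ofPred_eq]
    constructor
    · rintro ⟨σ, rfl⟩
      exact ⟨pm σ F, ⟨le_top, σ, rfl⟩, rfl⟩
    · rintro ⟨G', ⟨_, σ, rfl⟩, rfl⟩
      exact ⟨σ, rfl⟩
  have hcnt : (fam F).card = subCount (⊤ : SimpleGraph (Fin n)) F := by
    unfold subCount
    rw [← Set.ncard_coe_finset, himg, Set.ncard_image_of_injective _ hinj]
  rw [Finset.sum_congr rfl hcard, Finset.sum_const, nsmul_eq_mul, hcnt]
  rfl

/-- **Graph-containment families, bounded degree.**  If every vertex of `H` has at most `Δ`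
neighbours and `g ≥ 0` is a fractional cover of the copies of `H` of cost at most `1/2` at `p`,
then the copies of `H` have a cover of cost at most `1/2` at `p / (432 Δ)`, consisting of the
edge sets of the copies of one subgraph of `H`. -/
theorem graph_cover (H : SimpleGraph (Fin n)) (Δ : ℕ) (hΔ : 1 ≤ Δ)
    (hdeg : ∀ v : Fin n, (H.neighborSet v).ncard ≤ Δ)
    (g : Finset (Sym2 (Fin n)) → ℝ) (hg : ∀ S, 0 ≤ g S)
    (p : ℝ) (hp0 : 0 ≤ p) (hp1 : p ≤ 1)
    (hcost : ∑ S : Finset (Sym2 (Fin n)), g S * p ^ S.card ≤ 1 / 2)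
    (hcov : ∀ σ : Equiv.Perm (Fin n), 1 ≤ ∑ S ∈ (ed (pm σ H)).powerset, g S) :
    ∃ F : SimpleGraph (Fin n), F ≤ H ∧ ∑ T ∈ fam F, (p / (432 * Δ)) ^ T.card ≤ 1 / 2 := by
  have hΔ1 : (1 : ℝ) ≤ (Δ : ℝ) := by exact_mod_cast hΔ
  set q : ℝ := p / (432 * Δ) with hq
  have hq0 : 0 ≤ q := by rw [hq]; positivity
  have hq1 : q ≤ 1 := by
    rw [hq, div_le_one (by positivity)]
    linarith
  by_contra hcon
  push Not at hcon
  have hyp : ∀ F' : SimpleGraph (Fin n), F' ≤ H → 1 / 2 ≤ expCount q F' := by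
    intro F' hF'
    have := hcon F' hF'
    rw [fam_cost] at this
    exact this.le
  have hperm : ∀ F : SimpleGraph (Fin n), F ≤ H →
      (permCount H F : ℝ) ≤ 1 * (n.factorial : ℝ) * (p / 2) ^ F.edgeSet.ncard := by
    intro F hF
    have h := counting_bounded_degree H Δ hΔ hdeg q hq0 hq1 hyp F hF
    have h216 : 216 * (Δ : ℝ) * q = p / 2 := by
      rw [hq]
      field_simp
      ring
    rw [h216] at h
    have := permCount_le_of_subCount_le H F _ h
    linarith
  have hlow := frac_lower H (p / 2) (by positivity) hperm g hg hcov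
  have hup := half_cost g hg p hp0 hcost
  linarith

end Vale.Agent.H9.GraphCover
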