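import Mathlib

namespace Vale.Agent.H9

open Finset

/-- Rank inequality: if a set `B` of ranks has fewer than `k` members below `b * k` for every
`k ≥ 1`, then `b` times the `f`-weight of `B` is at most the weight of the first `b * |B|` ranks. -/
theorem rank_sum_le (b : ℕ) (f : ℕ → ℝ) (hf : Antitone f) (B : Finset ℕ)
    (hB : ∀ k : ℕ, 1 ≤ k → (B.filter (fun r => r < b * k)).card < k) :
    (b : ℝ) * ∑ r ∈ B, f r ≤ ∑ r ∈ Finset.range (b * B.card), f r := by
  induction B using Finset.induction_on_max with
  | empty => simp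
  | insert a s hs ih =>
    have has : a ∉ s := fun h => lt_irrefl a (hs a h)
    have hs' : ∀ k : ℕ, 1 ≤ k → (s.filter (fun r => r < b * k)).card < k := by
      intro k hk
      refine lt_of_le_of_lt (Finset.card_le_card ?_) (hB k hk)
      exact Finset.filter_subset_filter _ (Finset.subset_insert a s)
    have ih' := ih hs'
    have ha : b * (s.card + 1) ≤ a := by
      by_contra hlt
      replace hlt := not_le.mp hlt
      have h1 := hB (s.card + 1) (by omega)
      have hall : (insert a s).filter (fun r => r < b * (s.card + 1)) = insert a s := by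
        apply Finset.filter_true_of_mem
        intro x hx
        rcases Finset.mem_insert.mp hx with rfl | hx
        · exact hlt
        · exact lt_trans (hs x hx) hlt
      rw [hall, Finset.card_insert_of_notMem has] at h1
      omega
    rw [Finset.sum_insert has, Finset.card_insert_of_notMem has, mul_add, Nat.mul_succ,
      Finset.sum_range_add]
    have h2 : (b : ℝ) * f a ≤ ∑ x ∈ Finset.range b, f (b * s.card + x) := by
      have h3 : ∀ x ∈ Finset.range b, f a ≤ f (b * s.card + x) := by
        intro x hx
        apply hf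
        have hx' := Finset.mem_range.mp hx
        calc b * s.card + x ≤ b * s.card + b := by omega
          _ = b * (s.card + 1) := by ring
          _ ≤ a := ha
      calc (b : ℝ) * f a = ∑ x ∈ Finset.range b, f a := by simp
        _ ≤ _ := Finset.sum_le_sum h3
    linarith

/-- Every finite set can be enumerated in order of decreasing weight. -/
theorem exists_sorted_enum {ι : Type*} [DecidableEq ι] [Nonempty ι] (w : ι → ℝ) (t : Finset ι) :
    ∃ e : ℕ → ι, (Finset.range t.card).image e = t ∧
      ∀ m n, m ≤ n → n < t.card → w (e n) ≤ w (e m) := by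
  induction t using Finset.induction_on_min_value w with
  | empty => exact ⟨fun _ => Classical.arbitrary ι, by simp, by simp⟩
  | insert a s has hmin ih =>
    obtain ⟨e, himg, hmono⟩ := ih
    refine ⟨Function.update e s.card a, ?_, ?_⟩
    · rw [Finset.card_insert_of_notMem has, Finset.range_add_one, Finset.image_insert,
        Function.update_self]
      congr 1
      refine Eq.trans (Finset.image_congr ?_) himg
      intro m hm
      have hm' : m ≠ s.card := by
        have := Finset.mem_range.mp (Finset.mem_coe.mp hm)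
        omega
      simp [Function.update_of_ne hm']
    · intro m n hmn hn
      rw [Finset.card_insert_of_notMem has] at hn
      by_cases hn' : n = s.card
      · subst hn'
        rw [Function.update_self]
        by_cases hm' : m = s.card
        · rw [hm', Function.update_self]
        · rw [Function.update_of_ne hm']
          apply hmin
          rw [← himg]
          exact Finset.mem_image_of_mem _ (Finset.mem_range.mpr (by omega))
      · have hm' : m ≠ s.card := by omega
        rw [Function.update_of_ne hn', Function.update_of_ne hm']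
        exact hmono m n hmn (by omega)

/-- Level bound: if `H` contains no union of `k` members among the first `b * k` of a
decreasingly sorted enumeration of `t`, then the weight of the members of `t` inside `H`
is at most a `1 / b` fraction of the total weight of `t`. -/
theorem level_bound {X : Type*} [DecidableEq X] (g : Finset X → ℝ) (t : Finset (Finset X))
    (hg : ∀ S ∈ t, 0 ≤ g S) (e : ℕ → Finset X)
    (himg : (Finset.range t.card).image e = t)
    (hmono : ∀ m n, m ≤ n → n < t.card → g (e n) ≤ g (e m))
    (b : ℕ) (H : Finset X)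
    (hH : ∀ k : ℕ, 1 ≤ k → ∀ A ∈ Finset.powersetCard k (Finset.range (min (b * k) t.card)),
        ¬ (A.biUnion e ⊆ H)) :
    (b : ℝ) * ∑ S ∈ t.filter (fun S => S ⊆ H), g S ≤ ∑ S ∈ t, g S := by
  classical
  set N := t.card with hN
  have hmem : ∀ m, m < N → e m ∈ t := by
    intro m hm
    rw [← himg]
    exact Finset.mem_image_of_mem _ (Finset.mem_range.mpr hm)
  have hinj : Set.InjOn e (Finset.range N : Set ℕ) := by
    apply Finset.card_image_iff.mp
    rw [himg, Finset.card_range]
  let f : ℕ → ℝ := fun m => if m < N then g (e m) else 0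
  have hf : Antitone f := by
    intro m n hmn
    by_cases hn : n < N
    · have hm : m < N := lt_of_le_of_lt hmn hn
      simp only [f, hn, hm, if_true]
      exact hmono m n hmn hn
    · by_cases hm : m < N
      · simp only [f, hn, hm, if_true, if_false]
        exact hg _ (hmem m hm)
      · simp only [f, hn, hm, if_false]
        exact le_refl _
  let B : Finset ℕ := (Finset.range N).filter (fun m => e m ⊆ H)
  have hB : ∀ k : ℕ, 1 ≤ k → (B.filter (fun r => r < b * k)).card < k := by
    intro k hk
    by_contra hlt
    replace hlt := not_lt.mp hlt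
    obtain ⟨A, hAsub, hAcard⟩ := Finset.exists_subset_card_eq hlt
    have hA1 : A ∈ Finset.powersetCard k (Finset.range (min (b * k) N)) := by
      rw [Finset.mem_powersetCard]
      refine ⟨?_, hAcard⟩
      intro m hm
      have h1 := Finset.mem_filter.mp (hAsub hm)
      have h2 := Finset.mem_filter.mp h1.1
      rw [Finset.mem_range, lt_min_iff]
      exact ⟨h1.2, Finset.mem_range.mp h2.1⟩
    apply hH k hk A hA1
    apply Finset.biUnion_subset.mpr
    intro m hm
    have h1 := Finset.mem_filter.mp (hAsub hm)
    exact (Finset.mem_filter.mp h1.1).2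
  have h1 := rank_sum_le b f hf B hB
  have h2 : ∑ S ∈ t.filter (fun S => S ⊆ H), g S ≤ ∑ r ∈ B, f r := by
    have hsub : t.filter (fun S => S ⊆ H) ⊆ B.image e := by
      intro S hS
      obtain ⟨hSt, hSH⟩ := Finset.mem_filter.mp hS
      rw [← himg] at hSt
      obtain ⟨m, hm, rfl⟩ := Finset.mem_image.mp hSt
      exact Finset.mem_image_of_mem _ (Finset.mem_filter.mpr ⟨hm, hSH⟩)
    have hnn : ∀ S ∈ B.image e, 0 ≤ g S := by
      intro S hS
      obtain ⟨m, hm, rfl⟩ := Finset.mem_image.mp hS
      exact hg _ (hmem m (Finset.mem_range.mp (Finset.mem_filter.mp hm).1))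
    calc ∑ S ∈ t.filter (fun S => S ⊆ H), g S ≤ ∑ S ∈ B.image e, g S :=
          Finset.sum_le_sum_of_subset_of_nonneg hsub (fun S hS _ => hnn S hS)
      _ ≤ ∑ m ∈ B, g (e m) := Finset.sum_image_le_of_nonneg hnn
      _ = ∑ r ∈ B, f r := by
          apply Finset.sum_congr rfl
          intro m hm
          have hm' : m < N := Finset.mem_range.mp (Finset.mem_filter.mp hm).1
          simp only [f, hm', if_true]
  have h3 : ∑ r ∈ Finset.range (b * B.card), f r ≤ ∑ S ∈ t, g S := by
    calc ∑ r ∈ Finset.range (b * B.card), f r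
        = ∑ r ∈ (Finset.range (b * B.card)).filter (fun m => m < N), g (e r) := by
          rw [Finset.sum_filter]
      _ ≤ ∑ r ∈ Finset.range N, g (e r) := by
          apply Finset.sum_le_sum_of_subset_of_nonneg
          · intro m hm
            exact Finset.mem_range.mpr (Finset.mem_filter.mp hm).2
          · intro m hm _
            exact hg _ (hmem m (Finset.mem_range.mp hm))
      _ = ∑ S ∈ (Finset.range N).image e, g S := by
          rw [Finset.sum_image hinj]
      _ = ∑ S ∈ t, g S := by rw [himg]
  calc (b : ℝ) * ∑ S ∈ t.filter (fun S => S ⊆ H), g S ≤ (b : ℝ) * ∑ r ∈ B, f r :=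
        mul_le_mul_of_nonneg_left h2 (Nat.cast_nonneg b)
    _ ≤ _ := h1.trans h3

/-- In a family of pairwise disjoint sets of the same size `s`, a union of `|A|` distinct members
has exactly `s * |A|` elements. -/
theorem card_biUnion_level {X : Type*} [DecidableEq X] (t : Finset (Finset X)) (s : ℕ)
    (hcard : ∀ S ∈ t, S.card = s)
    (hdisj : ∀ S ∈ t, ∀ T ∈ t, S ≠ T → Disjoint S T)
    (e : ℕ → Finset X) (himg : (Finset.range t.card).image e = t)
    (A : Finset ℕ) (hA : A ⊆ Finset.range t.card) :
    (A.biUnion e).card = s * A.card := by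
  have hmem : ∀ m, m ∈ Finset.range t.card → e m ∈ t := by
    intro m hm
    rw [← himg]
    exact Finset.mem_image_of_mem _ hm
  have hinj : Set.InjOn e (Finset.range t.card : Set ℕ) := by
    apply Finset.card_image_iff.mp
    rw [himg, Finset.card_range]
  rw [Finset.card_biUnion]
  · rw [Finset.sum_congr rfl (fun m hm => hcard _ (hmem m (hA hm)))]
    simp [mul_comm]
  · intro m hm n hn hmn
    apply hdisj _ (hmem m (hA hm)) _ (hmem n (hA hn))
    intro h
    exact hmn (hinj (Finset.mem_coe.mpr (hA hm)) (Finset.mem_coe.mpr (hA hn)) h)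

/-- Binomial estimate `C(bk, k) x^k ≤ (3 b x)^k`. -/
theorem choose_mul_pow_le (b k : ℕ) (x : ℝ) (hx : 0 ≤ x) :
    ((b * k).choose k : ℝ) * x ^ k ≤ (3 * b * x) ^ k := by
  have h1 : ((b * k).choose k : ℝ) ≤ ((b * k : ℕ) : ℝ) ^ k / (k.factorial : ℝ) :=
    Nat.choose_le_pow_div k (b * k)
  have h2 : (k : ℝ) ^ k / (k.factorial : ℝ) ≤ 3 ^ k := by
    have h3 := Real.pow_div_factorial_le_exp (x := (k : ℝ)) (Nat.cast_nonneg k) k
    have h4 : Real.exp (k : ℝ) = Real.exp 1 ^ k := by
      rw [← Real.exp_nat_mul, mul_one]
    have h5 : Real.exp 1 ^ k ≤ 3 ^ k :=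
      pow_le_pow_left₀ (Real.exp_pos 1).le Real.exp_one_lt_three.le k
    linarith
  have h6 : ((b * k : ℕ) : ℝ) ^ k / (k.factorial : ℝ) = (b : ℝ) ^ k * ((k : ℝ) ^ k / (k.factorial : ℝ)) := by
    push_cast
    rw [mul_pow, mul_div_assoc]
  have hb : 0 ≤ (b : ℝ) ^ k := pow_nonneg (Nat.cast_nonneg b) k
  have hxk : 0 ≤ x ^ k := pow_nonneg hx k
  calc ((b * k).choose k : ℝ) * x ^ k ≤ ((b : ℝ) ^ k * 3 ^ k) * x ^ k := by
        apply mul_le_mul_of_nonneg_right _ hxk
        rw [h6] at h1
        exact h1.trans (mul_le_mul_of_nonneg_left h2 hb)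
    _ = (3 * b * x) ^ k := by ring

/-- A geometric sum bound. -/
theorem geom_sum_succ_le (r : ℝ) (hr0 : 0 ≤ r) (hr : r ≤ 1 / 2) (N : ℕ) :
    ∑ k ∈ Finset.range N, r ^ (k + 1) ≤ 2 * r - 2 * r ^ (N + 1) := by
  induction N with
  | zero => simp
  | succ N ih =>
    rw [Finset.sum_range_succ]
    have h1 : r ^ (N + 1 + 1) ≤ r ^ (N + 1) * (1 / 2) := by
      rw [pow_succ r (N + 1)]
      exact mul_le_mul_of_nonneg_left hr (pow_nonneg hr0 _)
    linarith

end Vale.Agent.H9
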