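import Mathlib
import Vale.Agent.H9.RankCover

namespace Vale.Agent.H9

open Finset

/-- Greedy choice of pairwise disjoint members: if every member of an indexed family of nonempty
sets meets at most `M` members, then any `M * k + 1` members contain `k + 1` pairwise disjoint
ones. -/
theorem exists_disjoint_subfamily {X : Type*} [DecidableEq X] (e : ℕ → Finset X) (M : ℕ)
    (k : ℕ) : ∀ (I : Finset ℕ), (∀ m ∈ I, (e m).Nonempty) →
    (∀ m ∈ I, (I.filter (fun m' => ¬ Disjoint (e m') (e m))).card ≤ M) →
    M * k < I.card →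
    ∃ A ⊆ I, A.card = k + 1 ∧ ∀ m ∈ A, ∀ m' ∈ A, m ≠ m' → Disjoint (e m) (e m') := by
  induction k with
  | zero =>
    intro I _ _ hk
    obtain ⟨m₀, hm₀⟩ := Finset.card_pos.mp (by omega : 0 < I.card)
    refine ⟨{m₀}, Finset.singleton_subset_iff.mpr hm₀, Finset.card_singleton m₀, ?_⟩
    intro m hm m' hm' hne
    rw [Finset.mem_singleton] at hm hm'
    exact absurd (hm.trans hm'.symm) hne
  | succ k ih =>
    intro I hne hdeg hk
    obtain ⟨m₀, hm₀⟩ := Finset.card_pos.mp (by omega : 0 < I.card)
    set J := I.filter (fun m' => Disjoint (e m') (e m₀)) with hJ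
    have hJI : J ⊆ I := Finset.filter_subset _ _
    have hsplit : J.card + (I.filter (fun m' => ¬ Disjoint (e m') (e m₀))).card = I.card :=
      Finset.card_filter_add_card_filter_not (s := I) (fun m' => Disjoint (e m') (e m₀))
    have hd := hdeg m₀ hm₀
    have hJcard : M * k < J.card := by
      have : M * (k + 1) = M * k + M := by ring
      omega
    have hneJ : ∀ m ∈ J, (e m).Nonempty := fun m hm => hne m (hJI hm)
    have hdegJ : ∀ m ∈ J, (J.filter (fun m' => ¬ Disjoint (e m') (e m))).card ≤ M := by
      intro m hm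
      refine le_trans (Finset.card_le_card ?_) (hdeg m (hJI hm))
      exact Finset.filter_subset_filter _ hJI
    obtain ⟨A', hA'J, hA'card, hA'disj⟩ := ih J hneJ hdegJ hJcard
    have hm₀J : m₀ ∉ J := by
      intro h
      have h1 := (Finset.mem_filter.mp h).2
      have h2 := hne m₀ hm₀
      rw [disjoint_self, Finset.bot_eq_empty] at h1
      exact (Finset.nonempty_iff_ne_empty.mp h2) h1
    have hm₀A' : m₀ ∉ A' := fun h => hm₀J (hA'J h)
    refine ⟨insert m₀ A', ?_, ?_, ?_⟩
    · intro m hm
      rcases Finset.mem_insert.mp hm with rfl | hm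
      · exact hm₀
      · exact hJI (hA'J hm)
    · rw [Finset.card_insert_of_notMem hm₀A', hA'card]
    · intro m hm m' hm' hmm'
      rcases Finset.mem_insert.mp hm with h1 | h1
      · rcases Finset.mem_insert.mp hm' with h2 | h2
        · exact absurd (h1.trans h2.symm) hmm'
        · rw [h1]
          exact (Finset.mem_filter.mp (hA'J h2)).2.symm
      · rcases Finset.mem_insert.mp hm' with h2 | h2
        · rw [h2]
          exact (Finset.mem_filter.mp (hA'J h1)).2
        · exact hA'disj m h1 m' h2 hmm'

/-- Level bound with pairwise disjoint certificates: if every member of `t` is nonempty and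
meets at most `M` members of `t`, and `H` contains no union of `k` pairwise disjoint members
among the first `M * b * k` of a decreasingly sorted enumeration of `t`, then the weight of
the members of `t` inside `H` is at most a `1 / b` fraction of the total weight of `t`. -/
theorem level_bound_matching {X : Type*} [DecidableEq X] (g : Finset X → ℝ)
    (t : Finset (Finset X)) (hg : ∀ S ∈ t, 0 ≤ g S) (e : ℕ → Finset X)
    (himg : (Finset.range t.card).image e = t)
    (hmono : ∀ m n, m ≤ n → n < t.card → g (e n) ≤ g (e m))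
    (M : ℕ) (hM : 1 ≤ M) (hne : ∀ S ∈ t, S.Nonempty)
    (hdeg : ∀ S ∈ t, (t.filter (fun T => ¬ Disjoint T S)).card ≤ M)
    (b : ℕ) (H : Finset X)
    (hH : ∀ k : ℕ, 1 ≤ k → ∀ A ∈ Finset.powersetCard k
        (Finset.range (min (M * b * k) t.card)),
        (∀ m ∈ A, ∀ m' ∈ A, m ≠ m' → Disjoint (e m) (e m')) → ¬ (A.biUnion e ⊆ H)) :
    (b : ℝ) * ∑ S ∈ t.filter (fun S => S ⊆ H), g S ≤ ∑ S ∈ t, g S := by
  classical
  set N := t.card with hN
  have hmem : ∀ m, m < N → e m ∈ t := by
    intro m hm
    rw [← himg]
    exact Finset.mem_image_of_mem _ (Finset.mem_range.mpr hm)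
  have hinj : Set.InjOn e (Finset.range N : Set ℕ) := by
    apply Finset.card_image_iff.mp
    rw [himg, Finset.card_range]
  let f : ℕ → ℝ := fun m => if m < N then g (e m) else 0
  have hf : Antitone f := by
    intro m n hmn
    by_cases hn : n < N
    · have hm : m < N := lt_of_le_of_lt hmn hn
      simp only [f, hn, hm, if_true]
      exact hmono m n hmn hn
    · by_cases hm : m < N
      · simp only [f, hn, hm, if_true, if_false]
        exact hg _ (hmem m hm)
      · simp only [f, hn, hm, if_false]
        exact le_refl _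
  let B : Finset ℕ := (Finset.range N).filter (fun m => e m ⊆ H)
  have hB : ∀ k : ℕ, 1 ≤ k → (B.filter (fun r => r < b * k)).card < k := by
    intro k' hk'
    by_contra hlt
    replace hlt := not_lt.mp hlt
    set I := B.filter (fun r => r < b * k') with hI
    have hIN : ∀ m ∈ I, m < N := by
      intro m hm
      exact Finset.mem_range.mp (Finset.mem_filter.mp (Finset.mem_filter.mp hm).1).1
    have hIne : ∀ m ∈ I, (e m).Nonempty := fun m hm => hne _ (hmem m (hIN m hm))
    have hIdeg : ∀ m ∈ I, (I.filter (fun m' => ¬ Disjoint (e m') (e m))).card ≤ M := by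
      intro m hm
      refine le_trans ?_ (hdeg (e m) (hmem m (hIN m hm)))
      have hinj' : Set.InjOn e (I.filter (fun m' => ¬ Disjoint (e m') (e m)) : Set ℕ) := by
        intro a ha c hc hac
        have ha' := hIN a (Finset.mem_filter.mp (Finset.mem_coe.mp ha)).1
        have hc' := hIN c (Finset.mem_filter.mp (Finset.mem_coe.mp hc)).1
        exact hinj (Finset.mem_coe.mpr (Finset.mem_range.mpr ha'))
          (Finset.mem_coe.mpr (Finset.mem_range.mpr hc')) hac
      rw [← Finset.card_image_of_injOn hinj']
      apply Finset.card_le_card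
      intro S hS
      obtain ⟨m', hm', rfl⟩ := Finset.mem_image.mp hS
      obtain ⟨hm'I, hm'd⟩ := Finset.mem_filter.mp hm'
      exact Finset.mem_filter.mpr ⟨hmem m' (hIN m' hm'I), hm'd⟩
    have hMpos : 0 < M := hM
    have hk1 : M * ((k' - 1) / M) < I.card := by
      have := Nat.mul_div_le (k' - 1) M
      omega
    obtain ⟨A, hAI, hAcard, hAdisj⟩ :=
      exists_disjoint_subfamily e M ((k' - 1) / M) I hIne hIdeg hk1
    have hk2 : k' ≤ M * ((k' - 1) / M + 1) := by
      have := Nat.lt_mul_div_succ (k' - 1) hMpos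
      omega
    have hA1 : A ∈ Finset.powersetCard ((k' - 1) / M + 1)
        (Finset.range (min (M * b * ((k' - 1) / M + 1)) N)) := by
      rw [Finset.mem_powersetCard]
      refine ⟨?_, hAcard⟩
      intro m hm
      have h1 := Finset.mem_filter.mp (hAI hm)
      rw [Finset.mem_range, lt_min_iff]
      refine ⟨lt_of_lt_of_le h1.2 ?_, hIN m (hAI hm)⟩
      calc b * k' ≤ b * (M * ((k' - 1) / M + 1)) := Nat.mul_le_mul_left b hk2
        _ = M * b * ((k' - 1) / M + 1) := by ring
    apply hH ((k' - 1) / M + 1) (Nat.le_add_left 1 _) A hA1 hAdisj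
    apply Finset.biUnion_subset.mpr
    intro m hm
    have h1 := Finset.mem_filter.mp (hAI hm)
    exact (Finset.mem_filter.mp h1.1).2
  have h1 := rank_sum_le b f hf B hB
  have h2 : ∑ S ∈ t.filter (fun S => S ⊆ H), g S ≤ ∑ r ∈ B, f r := by
    have hsub : t.filter (fun S => S ⊆ H) ⊆ B.image e := by
      intro S hS
      obtain ⟨hSt, hSH⟩ := Finset.mem_filter.mp hS
      rw [← himg] at hSt
      obtain ⟨m, hm, rfl⟩ := Finset.mem_image.mp hSt
      exact Finset.mem_image_of_mem _ (Finset.mem_filter.mpr ⟨hm, hSH⟩)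
    have hnn : ∀ S ∈ B.image e, 0 ≤ g S := by
      intro S hS
      obtain ⟨m, hm, rfl⟩ := Finset.mem_image.mp hS
      exact hg _ (hmem m (Finset.mem_range.mp (Finset.mem_filter.mp hm).1))
    calc ∑ S ∈ t.filter (fun S => S ⊆ H), g S ≤ ∑ S ∈ B.image e, g S :=
          Finset.sum_le_sum_of_subset_of_nonneg hsub (fun S hS _ => hnn S hS)
      _ ≤ ∑ m ∈ B, g (e m) := Finset.sum_image_le_of_nonneg hnn
      _ = ∑ r ∈ B, f r := by
          apply Finset.sum_congr rfl
          intro m hm
          have hm' : m < N := Finset.mem_range.mp (Finset.mem_filter.mp hm).1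
          simp only [f, hm', if_true]
  have h3 : ∑ r ∈ Finset.range (b * B.card), f r ≤ ∑ S ∈ t, g S := by
    calc ∑ r ∈ Finset.range (b * B.card), f r
        = ∑ r ∈ (Finset.range (b * B.card)).filter (fun m => m < N), g (e r) := by
          rw [Finset.sum_filter]
      _ ≤ ∑ r ∈ Finset.range N, g (e r) := by
          apply Finset.sum_le_sum_of_subset_of_nonneg
          · intro m hm
            exact Finset.mem_range.mpr (Finset.mem_filter.mp hm).2
          · intro m hm _
            exact hg _ (hmem m (Finset.mem_range.mp hm))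
      _ = ∑ S ∈ (Finset.range N).image e, g S := by
          rw [Finset.sum_image hinj]
      _ = ∑ S ∈ t, g S := by rw [himg]
  calc (b : ℝ) * ∑ S ∈ t.filter (fun S => S ⊆ H), g S ≤ (b : ℝ) * ∑ r ∈ B, f r :=
        mul_le_mul_of_nonneg_left h2 (Nat.cast_nonneg b)
    _ ≤ _ := h1.trans h3

end Vale.Agent.H9
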