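import Mathlib
import Vale.Agent.H9.RankCoverDeg

namespace Vale.Agent.H9

open Finset

/-- Talagrand's fractional-versus-integral comparison for fractional covers of bounded
level degree: every point lies in at most `D ^ s` support sets of size `s`. -/
theorem talagrand_bounded_degree {X : Type*} [Fintype X] [DecidableEq X] (D : ℕ) (hD : 1 ≤ D)
    (g : Finset X → ℝ) (p : ℝ) (hp0 : 0 ≤ p) (hp1 : p ≤ 1) (hg : ∀ S, 0 ≤ g S)
    (hdeg : ∀ (x : X) (s : ℕ) (C : Finset (Finset X)),
      (∀ S ∈ C, g S ≠ 0 ∧ S.card = s ∧ x ∈ S) → C.card ≤ D ^ s)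
    (hcost : ∑ S, g S * p ^ S.card ≤ 1 / 2) :
    ∃ G : Finset (Finset X), ∑ T ∈ G, (p / (32 * D)) ^ T.card ≤ 1 / 2 ∧
      ∀ H : Finset X, 1 ≤ ∑ S ∈ H.powerset, g S → ∃ T ∈ G, T ⊆ H := by
  classical
  have hD0 : (0 : ℝ) < D := by exact_mod_cast hD
  rcases eq_or_lt_of_le hp0 with hp | hp
  · -- the degenerate case p = 0
    subst hp
    refine ⟨Finset.univ.filter (fun S => S.Nonempty ∧ g S ≠ 0), ?_, ?_⟩
    · have h0 : ∀ T ∈ Finset.univ.filter (fun S : Finset X => S.Nonempty ∧ g S ≠ 0),
          ((0 : ℝ) / (32 * D)) ^ T.card = 0 := by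
        intro T hT
        have hne := (Finset.mem_filter.mp hT).2.1
        rw [zero_div, zero_pow (Finset.card_ne_zero.mpr hne)]
      rw [Finset.sum_eq_zero h0]
      norm_num
    · intro H hH
      by_contra hno
      have hg0 : g ∅ ≤ 1 / 2 := by
        have h1 : ∑ S : Finset X, g S * (0 : ℝ) ^ S.card = g ∅ := by
          rw [Finset.sum_eq_single ∅]
          · simp
          · intro S _ hS
            rw [zero_pow (Finset.card_ne_zero.mpr (Finset.nonempty_iff_ne_empty.mpr hS)),
              mul_zero]
          · intro h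
            exact absurd (Finset.mem_univ _) h
        linarith
      have h2 : ∑ S ∈ H.powerset, g S = g ∅ := by
        rw [Finset.sum_eq_single ∅]
        · intro S hS hS0
          by_contra hgS
          exact hno ⟨S, Finset.mem_filter.mpr ⟨Finset.mem_univ _,
            Finset.nonempty_iff_ne_empty.mpr hS0, hgS⟩, Finset.mem_powerset.mp hS⟩
        · intro h
          exact absurd (Finset.empty_mem_powerset H) h
      linarith
  · -- the main case p > 0
    set n := Fintype.card X with hn
    let t : ℕ → Finset (Finset X) := fun s =>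
      (Finset.univ.filter (fun S : Finset X => S.card = s)).filter (fun S => g S ≠ 0)
    have ht_card : ∀ s, ∀ S ∈ t s, S.card = s := by
      intro s S hS
      exact (Finset.mem_filter.mp (Finset.mem_filter.mp hS).1).2
    have ht_ne : ∀ s, ∀ S ∈ t s, g S ≠ 0 := by
      intro s S hS
      exact (Finset.mem_filter.mp hS).2
    have hex : ∀ s, ∃ e : ℕ → Finset X, (Finset.range (t s).card).image e = t s ∧
        ∀ m n, m ≤ n → n < (t s).card → g (e n) ≤ g (e m) :=
      fun s => exists_sorted_enum g (t s)
    choose e himg hmono using hex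
    have he_mem : ∀ s m, m < (t s).card → e s m ∈ t s := by
      intro s m hm
      rw [← himg s]
      exact Finset.mem_image_of_mem _ (Finset.mem_range.mpr hm)
    let b : ℕ → ℕ := fun s => ⌈(1 / p) ^ s⌉₊
    let M : ℕ → ℕ := fun s => s * D ^ s
    have hinv : 1 ≤ 1 / p := by
      rw [le_div_iff₀ hp]
      linarith
    have hb_ge : ∀ s, (1 / p) ^ s ≤ (b s : ℝ) := fun s => Nat.le_ceil _
    have hb_le : ∀ s, (b s : ℝ) ≤ 2 * (1 / p) ^ s := by
      intro s
      have h1 : (b s : ℝ) < (1 / p) ^ s + 1 :=
        Nat.ceil_lt_add_one (pow_nonneg (le_trans zero_le_one hinv) s)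
      have h2 : 1 ≤ (1 / p) ^ s := one_le_pow₀ hinv
      linarith
    have hM1 : ∀ s, 1 ≤ s → 1 ≤ M s := by
      intro s hs
      exact Nat.mul_pos hs (Nat.pow_pos hD)
    have hdeg' : ∀ s, ∀ S ∈ t s, ((t s).filter (fun T => ¬ Disjoint T S)).card ≤ M s := by
      intro s S hS
      have hsub : (t s).filter (fun T => ¬ Disjoint T S)
          ⊆ S.biUnion (fun x => (t s).filter (fun T => x ∈ T)) := by
        intro T hT
        obtain ⟨hTt, hTd⟩ := Finset.mem_filter.mp hT
        obtain ⟨x, hxT, hxS⟩ := Finset.not_disjoint_iff.mp hTd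
        exact Finset.mem_biUnion.mpr ⟨x, hxS, Finset.mem_filter.mpr ⟨hTt, hxT⟩⟩
      refine le_trans (Finset.card_le_card hsub) ?_
      have h1 := Finset.card_biUnion_le_card_mul S (fun x => (t s).filter (fun T => x ∈ T))
        (D ^ s) (fun x _ => hdeg x s _ (fun T hT =>
          ⟨ht_ne s T (Finset.mem_filter.mp hT).1, ht_card s T (Finset.mem_filter.mp hT).1,
            (Finset.mem_filter.mp hT).2⟩))
      rw [ht_card s S hS] at h1
      exact h1
    have hq0 : 0 ≤ p / (32 * D) := by positivity
    obtain ⟨Pd, hPd⟩ : ∃ Pd : ℕ → Finset ℕ → Prop, ∀ s A, Pd s A ↔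
        (∀ m ∈ A, ∀ m' ∈ A, m ≠ m' → Disjoint (e s m) (e s m')) :=
      ⟨fun s A => ∀ m ∈ A, ∀ m' ∈ A, m ≠ m' → Disjoint (e s m) (e s m'), fun _ _ => Iff.rfl⟩
    let D' : Finset (Σ _ : ℕ, Σ _ : ℕ, Finset ℕ) :=
      (Finset.range n).sigma (fun s => (Finset.range (t (s + 1)).card).sigma (fun k =>
        (Finset.powersetCard (k + 1)
          (Finset.range (min (M (s + 1) * b (s + 1) * (k + 1)) (t (s + 1)).card))).filter
          (fun A => Pd (s + 1) A)))
    let φ : (Σ _ : ℕ, Σ _ : ℕ, Finset ℕ) → Finset X := fun d => d.2.2.biUnion (e (d.1 + 1))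
    refine ⟨D'.image φ, ?_, ?_⟩
    · -- the cost of the cover
      have hterm : ∀ s k : ℕ, ∀ A ∈ (Finset.powersetCard (k + 1)
          (Finset.range (min (M (s + 1) * b (s + 1) * (k + 1)) (t (s + 1)).card))).filter
          (fun A => Pd (s + 1) A),
          (p / (32 * D)) ^ (A.biUnion (e (s + 1))).card
            = ((p / (32 * D)) ^ (s + 1)) ^ (k + 1) := by
        intro s k A hA
        obtain ⟨hA1, hAdisj'⟩ := Finset.mem_filter.mp hA
        have hAdisj := (hPd (s + 1) A).mp hAdisj'
        obtain ⟨hAsub, hAcard⟩ := Finset.mem_powersetCard.mp hA1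
        have hAlt : ∀ m ∈ A, m < (t (s + 1)).card := by
          intro m hm
          have := Finset.mem_range.mp (hAsub hm)
          exact lt_of_lt_of_le this (min_le_right _ _)
        have hc : (A.biUnion (e (s + 1))).card = (s + 1) * (k + 1) := by
          rw [Finset.card_biUnion (fun m hm m' hm' hne => hAdisj m hm m' hm' hne)]
          rw [Finset.sum_congr rfl (fun m hm => ht_card (s + 1) _ (he_mem (s + 1) m (hAlt m hm)))]
          simp [hAcard, mul_comm]
        rw [hc, pow_mul]
      have hy : ∀ s : ℕ, 3 * ((M (s + 1) * b (s + 1) : ℕ) : ℝ) * (p / (32 * D)) ^ (s + 1)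
          ≤ 3 / 16 * (1 / 16) ^ s := by
        intro s
        have h1 := hb_le (s + 1)
        have h2 : (D : ℝ) ^ (s + 1) * ((1 / p) ^ (s + 1) * (p / (32 * D)) ^ (s + 1))
            = (1 / 32) ^ (s + 1) := by
          rw [← mul_pow, ← mul_pow]
          congr 1
          field_simp
        have h3 : 0 ≤ (p / (32 * D)) ^ (s + 1) := pow_nonneg hq0 _
        have h4 : ((s + 1 : ℕ) : ℝ) ≤ 2 ^ s := by
          exact_mod_cast Nat.lt_two_pow_self (n := s)
        have h5 : (0 : ℝ) ≤ (1 / 32) ^ (s + 1) := by positivity
        have hMc : ((M (s + 1) : ℕ) : ℝ) = ((s + 1 : ℕ) : ℝ) * (D : ℝ) ^ (s + 1) := by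
          simp only [M]
          push_cast
          ring
        have hMnn : (0 : ℝ) ≤ ((M (s + 1) : ℕ) : ℝ) := Nat.cast_nonneg _
        calc 3 * ((M (s + 1) * b (s + 1) : ℕ) : ℝ) * (p / (32 * D)) ^ (s + 1)
            = 3 * (((M (s + 1) : ℕ) : ℝ) * (b (s + 1) : ℝ)) * (p / (32 * D)) ^ (s + 1) := by
              push_cast
              ring
          _ ≤ 3 * (((M (s + 1) : ℕ) : ℝ) * (2 * (1 / p) ^ (s + 1))) * (p / (32 * D)) ^ (s + 1) := by
              apply mul_le_mul_of_nonneg_right _ h3
              have := mul_le_mul_of_nonneg_left h1 hMnn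
              linarith
          _ = 6 * ((s + 1 : ℕ) : ℝ)
                * ((D : ℝ) ^ (s + 1) * ((1 / p) ^ (s + 1) * (p / (32 * D)) ^ (s + 1))) := by
              rw [hMc]
              ring
          _ = 6 * ((s + 1 : ℕ) : ℝ) * (1 / 32) ^ (s + 1) := by rw [h2]
          _ ≤ 6 * 2 ^ s * (1 / 32) ^ (s + 1) := by
              apply mul_le_mul_of_nonneg_right _ h5
              linarith
          _ = 3 / 16 * (1 / 16) ^ s := by
              rw [pow_succ]
              have : (1 / 16 : ℝ) ^ s = 2 ^ s * (1 / 32) ^ s := by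
                rw [← mul_pow]
                norm_num
              rw [this]
              ring
      have hinner : ∀ s : ℕ, ∑ k ∈ Finset.range (t (s + 1)).card,
          ∑ A ∈ (Finset.powersetCard (k + 1)
            (Finset.range (min (M (s + 1) * b (s + 1) * (k + 1)) (t (s + 1)).card))).filter
            (fun A => Pd (s + 1) A),
            (p / (32 * D)) ^ (A.biUnion (e (s + 1))).card ≤ 3 / 8 * (1 / 16) ^ s := by
        intro s
        set y : ℝ := 3 / 16 * (1 / 16) ^ s with hydef
        have hy0 : 0 ≤ y := by positivity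
        have hy1 : y ≤ 1 / 2 := by
          have : (1 / 16 : ℝ) ^ s ≤ 1 := pow_le_one₀ (by norm_num) (by norm_num)
          rw [hydef]
          linarith
        have hk : ∀ k ∈ Finset.range (t (s + 1)).card,
            ∑ A ∈ (Finset.powersetCard (k + 1)
              (Finset.range (min (M (s + 1) * b (s + 1) * (k + 1)) (t (s + 1)).card))).filter
              (fun A => Pd (s + 1) A),
              (p / (32 * D)) ^ (A.biUnion (e (s + 1))).card ≤ y ^ (k + 1) := by
          intro k _
          rw [Finset.sum_congr rfl (hterm s k), Finset.sum_const, nsmul_eq_mul]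
          have hx0 : 0 ≤ (p / (32 * D)) ^ (s + 1) := pow_nonneg hq0 _
          have hch : (((Finset.powersetCard (k + 1)
              (Finset.range (min (M (s + 1) * b (s + 1) * (k + 1)) (t (s + 1)).card))).filter
              (fun A => Pd (s + 1) A)).card : ℝ)
              ≤ ((M (s + 1) * b (s + 1) * (k + 1)).choose (k + 1) : ℝ) := by
            have h1 := Finset.card_filter_le (Finset.powersetCard (k + 1)
              (Finset.range (min (M (s + 1) * b (s + 1) * (k + 1)) (t (s + 1)).card)))
              (fun A => Pd (s + 1) A)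
            rw [Finset.card_powersetCard, Finset.card_range] at h1
            have h2 := Nat.choose_le_choose (k + 1)
              (min_le_left (M (s + 1) * b (s + 1) * (k + 1)) (t (s + 1)).card)
            exact_mod_cast h1.trans h2
          calc _ ≤ ((M (s + 1) * b (s + 1) * (k + 1)).choose (k + 1) : ℝ)
                  * ((p / (32 * D)) ^ (s + 1)) ^ (k + 1) :=
                mul_le_mul_of_nonneg_right hch (pow_nonneg hx0 _)
            _ ≤ (3 * ((M (s + 1) * b (s + 1) : ℕ) : ℝ) * (p / (32 * D)) ^ (s + 1)) ^ (k + 1) :=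
                choose_mul_pow_le (M (s + 1) * b (s + 1)) (k + 1) _ hx0
            _ ≤ y ^ (k + 1) :=
                pow_le_pow_left₀ (by positivity) (hy s) (k + 1)
        calc _ ≤ ∑ k ∈ Finset.range (t (s + 1)).card, y ^ (k + 1) := Finset.sum_le_sum hk
          _ ≤ 2 * y - 2 * y ^ ((t (s + 1)).card + 1) := geom_sum_succ_le y hy0 hy1 _
          _ ≤ 2 * y := by
              have : 0 ≤ y ^ ((t (s + 1)).card + 1) := pow_nonneg hy0 _
              linarith
          _ = 3 / 8 * (1 / 16) ^ s := by rw [hydef]; ring
      have hgeo : ∑ s ∈ Finset.range n, (1 / 16 : ℝ) ^ s ≤ 9 / 8 := by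
        have h1 := geom_sum_succ_le (1 / 16 : ℝ) (by norm_num) (by norm_num) n
        have h2 : ∑ s ∈ Finset.range n, (1 / 16 : ℝ) ^ s
            ≤ ∑ s ∈ Finset.range (n + 1), (1 / 16 : ℝ) ^ s := by
          rw [Finset.sum_range_succ]
          have : 0 ≤ (1 / 16 : ℝ) ^ n := by positivity
          linarith
        rw [Finset.sum_range_succ'] at h2
        have h3 : 0 ≤ (1 / 16 : ℝ) ^ (n + 1) := by positivity
        simp only [pow_zero] at h2
        linarith
      calc ∑ T ∈ D'.image φ, (p / (32 * D)) ^ T.card
          ≤ ∑ d ∈ D', (p / (32 * D)) ^ (φ d).card :=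
            Finset.sum_image_le_of_nonneg (fun T _ => pow_nonneg hq0 _)
        _ = ∑ s ∈ Finset.range n, ∑ k ∈ Finset.range (t (s + 1)).card,
              ∑ A ∈ (Finset.powersetCard (k + 1)
                (Finset.range (min (M (s + 1) * b (s + 1) * (k + 1)) (t (s + 1)).card))).filter
                (fun A => Pd (s + 1) A),
                (p / (32 * D)) ^ (A.biUnion (e (s + 1))).card := by
            rw [Finset.sum_sigma]
            apply Finset.sum_congr rfl
            intro s _
            rw [Finset.sum_sigma]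
        _ ≤ ∑ s ∈ Finset.range n, 3 / 8 * (1 / 16 : ℝ) ^ s :=
            Finset.sum_le_sum (fun s _ => hinner s)
        _ = 3 / 8 * ∑ s ∈ Finset.range n, (1 / 16 : ℝ) ^ s := by rw [Finset.mul_sum]
        _ ≤ 1 / 2 := by linarith
    · -- the covering property
      intro H hH
      by_contra hno
      have hlevel : ∀ s : ℕ, ∑ S ∈ H.powerset.filter (fun S => S.card = s), g S
          ≤ p ^ s * ∑ S ∈ Finset.univ.filter (fun S : Finset X => S.card = s), g S := by
        intro s
        rcases Nat.eq_zero_or_pos s with hs | hs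
        · subst hs
          rw [pow_zero, one_mul]
          apply Finset.sum_le_sum_of_subset_of_nonneg
          · intro S hS
            exact Finset.mem_filter.mpr ⟨Finset.mem_univ _, (Finset.mem_filter.mp hS).2⟩
          · intro S _ _
            exact hg S
        · have hH' : ∀ k : ℕ, 1 ≤ k → ∀ A ∈ Finset.powersetCard k
              (Finset.range (min (M s * b s * k) (t s).card)),
              (∀ m ∈ A, ∀ m' ∈ A, m ≠ m' → Disjoint (e s m) (e s m')) →
              ¬ (A.biUnion (e s) ⊆ H) := by
            intro k hk A hA hAdisj hsub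
            apply hno
            obtain ⟨s', rfl⟩ : ∃ s', s = s' + 1 := ⟨s - 1, by omega⟩
            obtain ⟨k', rfl⟩ : ∃ k', k = k' + 1 := ⟨k - 1, by omega⟩
            obtain ⟨hAsub, hAcard⟩ := Finset.mem_powersetCard.mp hA
            have hAsub' : A ⊆ Finset.range (t (s' + 1)).card := by
              intro m hm
              have := Finset.mem_range.mp (hAsub hm)
              exact Finset.mem_range.mpr (lt_of_lt_of_le this (min_le_right _ _))
            have hk' : k' + 1 ≤ (t (s' + 1)).card := by
              have := Finset.card_le_card hAsub'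
              rw [hAcard, Finset.card_range] at this
              exact this
            have hs' : s' < n := by
              have hpos : 0 < (t (s' + 1)).card := by omega
              obtain ⟨S, hS⟩ := Finset.card_pos.mp hpos
              have h1 := ht_card _ S hS
              have h2 := Finset.card_le_univ S
              omega
            refine ⟨A.biUnion (e (s' + 1)), Finset.mem_image.mpr ⟨⟨s', k', A⟩, ?_, rfl⟩, hsub⟩
            simp only [D', Finset.mem_sigma, Finset.mem_range, Finset.mem_filter]
            exact ⟨hs', by omega, hA, (hPd (s' + 1) A).mpr hAdisj⟩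
          have hne : ∀ S ∈ t s, S.Nonempty := by
            intro S hS
            rw [← Finset.card_pos, ht_card s S hS]
            exact hs
          have hlev := level_bound_matching g (t s) (fun S _ => hg S) (e s) (himg s) (hmono s)
            (M s) (hM1 s hs) hne (hdeg' s) (b s) H hH'
          have hZ : ∑ S ∈ H.powerset.filter (fun S => S.card = s), g S
              ≤ ∑ S ∈ (t s).filter (fun S => S ⊆ H), g S := by
            rw [← Finset.sum_filter_ne_zero]
            apply Finset.sum_le_sum_of_subset_of_nonneg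
            · intro S hS
              obtain ⟨hS1, hS2⟩ := Finset.mem_filter.mp hS
              obtain ⟨hS3, hS4⟩ := Finset.mem_filter.mp hS1
              refine Finset.mem_filter.mpr ⟨?_, Finset.mem_powerset.mp hS3⟩
              exact Finset.mem_filter.mpr ⟨Finset.mem_filter.mpr ⟨Finset.mem_univ _, hS4⟩, hS2⟩
            · intro S _ _
              exact hg S
          have hL : ∑ S ∈ t s, g S
              = ∑ S ∈ Finset.univ.filter (fun S : Finset X => S.card = s), g S :=
            Finset.sum_filter_ne_zero _
          have hZ0 : 0 ≤ ∑ S ∈ (t s).filter (fun S => S ⊆ H), g S :=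
            Finset.sum_nonneg (fun S _ => hg S)
          have hps : 0 < p ^ s := pow_pos hp s
          have h1 : (1 / p) ^ s * ∑ S ∈ (t s).filter (fun S => S ⊆ H), g S ≤ ∑ S ∈ t s, g S :=
            le_trans (mul_le_mul_of_nonneg_right (hb_ge s) hZ0) hlev
          have h2 : p ^ s * ((1 / p) ^ s * ∑ S ∈ (t s).filter (fun S => S ⊆ H), g S)
              = ∑ S ∈ (t s).filter (fun S => S ⊆ H), g S := by
            rw [← mul_assoc, ← mul_pow]
            have : p * (1 / p) = 1 := by field_simp
            rw [this, one_pow, one_mul]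
          calc ∑ S ∈ H.powerset.filter (fun S => S.card = s), g S
              ≤ ∑ S ∈ (t s).filter (fun S => S ⊆ H), g S := hZ
            _ = p ^ s * ((1 / p) ^ s * ∑ S ∈ (t s).filter (fun S => S ⊆ H), g S) := h2.symm
            _ ≤ p ^ s * ∑ S ∈ t s, g S := mul_le_mul_of_nonneg_left h1 hps.le
            _ = _ := by rw [hL]
      have hsum1 : ∑ S ∈ H.powerset, g S
          = ∑ s ∈ Finset.range (n + 1), ∑ S ∈ H.powerset.filter (fun S => S.card = s), g S := by
        rw [Finset.sum_fiberwise_of_maps_to]
        intro S _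
        exact Finset.mem_range.mpr (Nat.lt_succ_of_le (Finset.card_le_univ S))
      have hsum2 : ∑ S : Finset X, g S * p ^ S.card
          = ∑ s ∈ Finset.range (n + 1),
              p ^ s * ∑ S ∈ Finset.univ.filter (fun S : Finset X => S.card = s), g S := by
        rw [← Finset.sum_fiberwise_of_maps_to (g := fun S : Finset X => S.card)
          (t := Finset.range (n + 1))
          (fun S _ => Finset.mem_range.mpr (Nat.lt_succ_of_le (Finset.card_le_univ S)))]
        apply Finset.sum_congr rfl
        intro s _
        rw [Finset.mul_sum]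
        apply Finset.sum_congr rfl
        intro S hS
        rw [(Finset.mem_filter.mp hS).2, mul_comm]
      have hfin : ∑ S ∈ H.powerset, g S ≤ 1 / 2 := by
        rw [hsum1]
        refine le_trans (Finset.sum_le_sum (fun s _ => hlevel s)) ?_
        rw [← hsum2]
        exact hcost
      linarith

end Vale.Agent.H9
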