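import Mathlib
import Vale.Agent.H9.RankCover

namespace Vale.Agent.H9

open Finset

/-- Rank selection: the weight of a set `B` of ranks is paid by a `1 / b` fraction of the
weight of the first `b * |B|` ranks together with, for each `k`, the `k`-th member of `B`
whenever it lies below `b * k`. -/
theorem rank_select (b : ℕ) (f : ℕ → ℝ) (hf : Antitone f) (hf0 : ∀ m, 0 ≤ f m) (B : Finset ℕ) :
    ∃ P : ℕ → Option ℕ,
      (∀ k m, P k = some m → 1 ≤ k ∧ k ≤ B.card ∧ m ∈ B ∧ m < b * k ∧
        (B.filter (fun r => r ≤ m)).card = k) ∧
      (b : ℝ) * ∑ r ∈ B, f r ≤ ∑ r ∈ Finset.range (b * B.card), f r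
          + (b : ℝ) * ∑ k ∈ Finset.Icc 1 B.card, (P k).elim 0 f := by
  induction B using Finset.induction_on_max with
  | empty => exact ⟨fun _ => none, by simp, by simp⟩
  | insert a s hs ih =>
    obtain ⟨P, hP1, hP2⟩ := ih
    have has : a ∉ s := fun h => lt_irrefl a (hs a h)
    have hcard : (insert a s).card = s.card + 1 := Finset.card_insert_of_notMem has
    have hold : ∀ k m, P k = some m → 1 ≤ k ∧ k ≤ (insert a s).card ∧ m ∈ insert a s ∧ m < b * k ∧
        ((insert a s).filter (fun r => r ≤ m)).card = k := by
      intro k m hkm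
      obtain ⟨h1, h2, h3, h4, h5⟩ := hP1 k m hkm
      refine ⟨h1, by omega, Finset.mem_insert_of_mem h3, h4, ?_⟩
      rw [Finset.filter_insert, if_neg (not_le.mpr (hs m h3))]
      exact h5
    have hne : ∀ k ∈ Finset.Icc 1 s.card, k ≠ s.card + 1 := by
      intro k hk
      have := (Finset.mem_Icc.mp hk).2
      omega
    have hcr0 : ∀ o : Option ℕ, 0 ≤ o.elim 0 f := by
      intro o
      cases o with
      | none => simp
      | some m => simpa using hf0 m
    have hsplit : ∑ r ∈ Finset.range (b * (s.card + 1)), f r
        = ∑ r ∈ Finset.range (b * s.card), f r + ∑ x ∈ Finset.range b, f (b * s.card + x) := by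
      rw [Nat.mul_succ, Finset.sum_range_add]
    have hblock0 : 0 ≤ ∑ x ∈ Finset.range b, f (b * s.card + x) :=
      Finset.sum_nonneg (fun x _ => hf0 _)
    by_cases hab : a < b * (s.card + 1)
    · refine ⟨Function.update P (s.card + 1) (some a), ?_, ?_⟩
      · intro k m hkm
        by_cases hk : k = s.card + 1
        · subst hk
          rw [Function.update_self] at hkm
          have hm : a = m := Option.some.inj hkm
          subst hm
          refine ⟨by omega, by omega, Finset.mem_insert_self _ _, hab, ?_⟩
          rw [Finset.filter_true_of_mem, hcard]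
          intro x hx
          rcases Finset.mem_insert.mp hx with rfl | hx
          · exact le_rfl
          · exact (hs x hx).le
        · rw [Function.update_of_ne hk] at hkm
          exact hold k m hkm
      · rw [hcard, Finset.sum_insert has, hsplit, Finset.sum_Icc_succ_top (by omega),
          Function.update_self]
        have h1 : ∑ k ∈ Finset.Icc 1 s.card, (Function.update P (s.card + 1) (some a) k).elim 0 f
            = ∑ k ∈ Finset.Icc 1 s.card, (P k).elim 0 f := by
          apply Finset.sum_congr rfl
          intro k hk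
          rw [Function.update_of_ne (hne k hk)]
        rw [h1]
        simp only [Option.elim_some]
        have hb0 : (0 : ℝ) ≤ (b : ℝ) := Nat.cast_nonneg b
        nlinarith
    · refine ⟨P, hold, ?_⟩
      replace hab := not_lt.mp hab
      rw [hcard, Finset.sum_insert has, hsplit, Finset.sum_Icc_succ_top (by omega)]
      have h2 : (b : ℝ) * f a ≤ ∑ x ∈ Finset.range b, f (b * s.card + x) := by
        have h3 : ∀ x ∈ Finset.range b, f a ≤ f (b * s.card + x) := by
          intro x hx
          apply hf
          have hx' := Finset.mem_range.mp hx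
          calc b * s.card + x ≤ b * s.card + b := by omega
            _ = b * (s.card + 1) := by ring
            _ ≤ a := hab
        calc (b : ℝ) * f a = ∑ x ∈ Finset.range b, f a := by simp
          _ ≤ _ := Finset.sum_le_sum h3
      have h4 := hcr0 (P (s.card + 1))
      have hb0 : (0 : ℝ) ≤ (b : ℝ) := Nat.cast_nonneg b
      nlinarith

/-- Summing the weight of the largest member over all `k`-subsets of `range n`. -/
theorem sup_sum_le (f : ℕ → ℝ) (hf0 : ∀ m, 0 ≤ f m) (n k : ℕ) (hk : 1 ≤ k) :
    ∑ A ∈ Finset.powersetCard k (Finset.range n), f (A.sup id)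
      ≤ (n.choose (k - 1) : ℝ) * ∑ m ∈ Finset.range n, f m := by
  have h1 : ∀ A ∈ Finset.powersetCard k (Finset.range n),
      f (A.sup id) ≤ ∑ m ∈ Finset.range n, if m ∈ A then f m else 0 := by
    intro A hA
    obtain ⟨hAsub, hAcard⟩ := Finset.mem_powersetCard.mp hA
    have hne : A.Nonempty := Finset.card_pos.mp (by omega)
    obtain ⟨i, hi, hsup⟩ := Finset.exists_mem_eq_sup A hne id
    have h2 : (if i ∈ A then f i else 0) ≤ ∑ m ∈ Finset.range n, if m ∈ A then f m else 0 :=
      Finset.single_le_sum (f := fun m => if m ∈ A then f m else 0)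
        (fun m _ => by
          show 0 ≤ if m ∈ A then f m else 0
          split_ifs
          · exact hf0 m
          · exact le_rfl) (hAsub hi)
    rw [if_pos hi] at h2
    rw [hsup]
    exact h2
  have h3 : ∀ m ∈ Finset.range n,
      ∑ A ∈ Finset.powersetCard k (Finset.range n), (if m ∈ A then f m else 0)
        ≤ (n.choose (k - 1) : ℝ) * f m := by
    intro m _
    rw [← Finset.sum_filter, Finset.sum_const, nsmul_eq_mul]
    apply mul_le_mul_of_nonneg_right _ (hf0 m)
    have h4 : ((Finset.powersetCard k (Finset.range n)).filter (fun A => m ∈ A)).card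
        ≤ (Finset.powersetCard (k - 1) (Finset.range n)).card := by
      apply Finset.card_le_card_of_injOn (fun A => A.erase m)
      · intro A hA
        obtain ⟨hA1, hmA⟩ := Finset.mem_filter.mp (Finset.mem_coe.mp hA)
        obtain ⟨hAsub, hAcard⟩ := Finset.mem_powersetCard.mp hA1
        apply Finset.mem_coe.mpr
        apply Finset.mem_powersetCard.mpr
        refine ⟨(Finset.erase_subset _ _).trans hAsub, ?_⟩
        rw [Finset.card_erase_of_mem hmA, hAcard]
      · intro A hA A' hA' h
        have hmA := (Finset.mem_filter.mp (Finset.mem_coe.mp hA)).2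
        have hmA' := (Finset.mem_filter.mp (Finset.mem_coe.mp hA')).2
        simp only at h
        rw [← Finset.insert_erase hmA, ← Finset.insert_erase hmA', h]
    rw [Finset.card_powersetCard, Finset.card_range] at h4
    exact_mod_cast h4
  calc ∑ A ∈ Finset.powersetCard k (Finset.range n), f (A.sup id)
      ≤ ∑ A ∈ Finset.powersetCard k (Finset.range n),
          ∑ m ∈ Finset.range n, (if m ∈ A then f m else 0) := Finset.sum_le_sum h1
    _ = ∑ m ∈ Finset.range n, ∑ A ∈ Finset.powersetCard k (Finset.range n),
          (if m ∈ A then f m else 0) := Finset.sum_comm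
    _ ≤ ∑ m ∈ Finset.range n, (n.choose (k - 1) : ℝ) * f m := Finset.sum_le_sum h3
    _ = (n.choose (k - 1) : ℝ) * ∑ m ∈ Finset.range n, f m := by rw [Finset.mul_sum]

end Vale.Agent.H9
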