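import Mathlib
import Vale.Agent.H9.RankCover
import Vale.Agent.H9.TreeRank

namespace Vale.Agent.H9

open Finset

/-- Pool elements: a root together with an item (a set and a credit). -/
abbrev PE (X : Type*) := Σ _ : X, Finset X × ℝ

/-- Credit of an optional item. -/
def cred {X : Type*} (o : Option (Finset X × ℝ)) : ℝ := o.elim 0 Prod.snd

theorem cred_none {X : Type*} : cred (none : Option (Finset X × ℝ)) = 0 := rfl

theorem cred_some {X : Type*} (i : Finset X × ℝ) : cred (some i) = i.2 := rfl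

theorem sum_range_le_of_zero (f : ℕ → ℝ) (hf0 : ∀ m, 0 ≤ f m) (N : ℕ)
    (hN : ∀ m, N ≤ m → f m = 0) (n : ℕ) :
    ∑ m ∈ Finset.range n, f m ≤ ∑ m ∈ Finset.range N, f m := by
  have h1 : ∑ m ∈ (Finset.range n).filter (fun m => m < N), f m = ∑ m ∈ Finset.range n, f m := by
    apply Finset.sum_filter_of_ne
    intro m _ hm
    by_contra hlt
    exact hm (hN m (not_lt.mp hlt))
  rw [← h1]
  apply Finset.sum_le_sum_of_subset_of_nonneg
  · intro m hm
    exact Finset.mem_range.mpr (Finset.mem_filter.mp hm).2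
  · intro m _ _
    exact hf0 m

/-- Consolidation of a pool: unions of `k` pieces with distinct roots among the first `b * k`
pool elements (in decreasing order of credit) pay for every selection from the pool, up to a
`1 / b` fraction of the total credit of the pool. -/
theorem consolidate {X : Type*} [DecidableEq X] [Nonempty X] (b s1 : ℕ) (P : Finset (PE X))
    (hw : ∀ a ∈ P, 0 ≤ a.2.2)
    (hsize : ∀ a ∈ P, (insert a.1 a.2.1).card = s1)
    (hdisj : ∀ a ∈ P, ∀ a' ∈ P, a.1 ≠ a'.1 →
      Disjoint (insert a.1 a.2.1) (insert a'.1 a'.2.1)) :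
    ∃ It : ℕ → Finset (Finset X × ℝ),
      (∀ k, ∀ i ∈ It k, 0 ≤ i.2 ∧ i.1.card = k * s1 ∧
        ∀ y ∈ i.1, ∃ a ∈ P, y ∈ insert a.1 a.2.1) ∧
      (∀ k, 1 ≤ k → ∑ i ∈ It k, i.2 ≤ ((b * k).choose (k - 1) : ℝ) * ∑ a ∈ P, a.2.2) ∧
      (∀ k, (It k).card ≤ (b * k).choose k) ∧
      (∀ (H : Finset X) (Sel : Finset (PE X)), Sel ⊆ P →
        (∀ a ∈ Sel, insert a.1 a.2.1 ⊆ H) →
        (∀ a ∈ Sel, ∀ a' ∈ Sel, a.1 = a'.1 → a = a') →
        ∃ s : ℕ → Option (Finset X × ℝ),
          (∀ k i, s k = some i → 1 ≤ k ∧ k ≤ P.card ∧ i ∈ It k ∧ i.1 ⊆ H) ∧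
          (b : ℝ) * ∑ a ∈ Sel, a.2.2
            ≤ ∑ a ∈ P, a.2.2 + (b : ℝ) * ∑ k ∈ Finset.Icc 1 P.card, cred (s k)) := by
  classical
  have : Nonempty (PE X) := ⟨⟨Classical.arbitrary X, (∅, 0)⟩⟩
  obtain ⟨e, himg, hmono⟩ := exists_sorted_enum (fun a : PE X => a.2.2) P
  set N := P.card with hN
  have hinj : Set.InjOn e (Finset.range N : Set ℕ) := by
    apply Finset.card_image_iff.mp
    rw [himg, Finset.card_range]
  have hmemP : ∀ m, m < N → e m ∈ P := by
    intro m hm
    rw [← himg]
    exact Finset.mem_image_of_mem _ (Finset.mem_range.mpr hm)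
  set f : ℕ → ℝ := fun m => if m < N then (e m).2.2 else 0 with hf
  have hf0 : ∀ m, 0 ≤ f m := by
    intro m
    simp only [hf]
    split_ifs with h
    · exact hw _ (hmemP m h)
    · exact le_rfl
  have hfN : ∀ m, N ≤ m → f m = 0 := by
    intro m hm
    simp only [hf]
    rw [if_neg (not_lt.mpr hm)]
  have hfanti : Antitone f := by
    intro m n hmn
    by_cases hn : n < N
    · have hm : m < N := lt_of_le_of_lt hmn hn
      simp only [hf]
      rw [if_pos hn, if_pos hm]
      exact hmono m n hmn hn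
    · rw [hfN n (not_lt.mp hn)]
      exact hf0 m
  have hsumP : ∑ m ∈ Finset.range N, f m = ∑ a ∈ P, a.2.2 := by
    rw [← himg, Finset.sum_image hinj]
    apply Finset.sum_congr rfl
    intro m hm
    simp only [hf]
    rw [if_pos (Finset.mem_range.mp hm)]
  set piece : ℕ → Finset X := fun m => insert (e m).1 (e m).2.1 with hpiece
  set It : ℕ → Finset (Finset X × ℝ) := fun k =>
    ((Finset.powersetCard k (Finset.range (min (b * k) N))).filter
      (fun A : Finset ℕ => ∀ m ∈ A, ∀ m' ∈ A, (e m).1 = (e m').1 → m = m')).image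
      (fun A => (A.biUnion piece, f (A.sup id))) with hIt
  have hItmem : ∀ k i, i ∈ It k → ∃ A : Finset ℕ, A ⊆ Finset.range (min (b * k) N) ∧ A.card = k ∧
      (∀ m ∈ A, ∀ m' ∈ A, (e m).1 = (e m').1 → m = m') ∧ i = (A.biUnion piece, f (A.sup id)) := by
    intro k i hi
    obtain ⟨A, hA, rfl⟩ := Finset.mem_image.mp hi
    obtain ⟨hA1, hA2⟩ := Finset.mem_filter.mp hA
    obtain ⟨hA3, hA4⟩ := Finset.mem_powersetCard.mp hA1
    exact ⟨A, hA3, hA4, hA2, rfl⟩
  refine ⟨It, ?_, ?_, ?_, ?_⟩
  · intro k i hi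
    obtain ⟨A, hAsub, hAcard, hAinj, rfl⟩ := hItmem k i hi
    have hAN : ∀ m ∈ A, m < N := by
      intro m hm
      have := Finset.mem_range.mp (hAsub hm)
      exact lt_of_lt_of_le this (min_le_right _ _)
    refine ⟨hf0 _, ?_, ?_⟩
    · show (A.biUnion piece).card = k * s1
      rw [Finset.card_biUnion]
      · rw [Finset.sum_congr rfl (fun m hm => hsize (e m) (hmemP m (hAN m hm))), Finset.sum_const,
          hAcard, smul_eq_mul]
      · intro m hm m' hm' hne
        apply hdisj _ (hmemP m (hAN m hm)) _ (hmemP m' (hAN m' hm'))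
        intro h
        exact hne (hAinj m hm m' hm' h)
    · intro y hy
      obtain ⟨m, hm, hy'⟩ := Finset.mem_biUnion.mp hy
      exact ⟨e m, hmemP m (hAN m hm), hy'⟩
  · intro k hk
    have h1 : ∑ i ∈ It k, i.2 ≤ ∑ A ∈ (Finset.powersetCard k (Finset.range (min (b * k) N))).filter
        (fun A : Finset ℕ => ∀ m ∈ A, ∀ m' ∈ A, (e m).1 = (e m').1 → m = m'), f (A.sup id) := by
      apply Finset.sum_image_le_of_nonneg (f := fun i : Finset X × ℝ => i.2)
        (g := fun A : Finset ℕ => (A.biUnion piece, f (A.sup id)))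
      intro u hu
      obtain ⟨A, _, rfl⟩ := Finset.mem_image.mp hu
      exact hf0 _
    have h2 : ∑ A ∈ (Finset.powersetCard k (Finset.range (min (b * k) N))).filter
        (fun A : Finset ℕ => ∀ m ∈ A, ∀ m' ∈ A, (e m).1 = (e m').1 → m = m'), f (A.sup id)
        ≤ ∑ A ∈ Finset.powersetCard k (Finset.range (min (b * k) N)), f (A.sup id) :=
      Finset.sum_le_sum_of_subset_of_nonneg (Finset.filter_subset _ _) (fun A _ _ => hf0 _)
    have h3 := sup_sum_le f hf0 (min (b * k) N) k hk
    have h4 : ((min (b * k) N).choose (k - 1) : ℝ) ≤ ((b * k).choose (k - 1) : ℝ) := by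
      exact_mod_cast Nat.choose_le_choose (k - 1) (min_le_left (b * k) N)
    have h5 : ∑ m ∈ Finset.range (min (b * k) N), f m ≤ ∑ a ∈ P, a.2.2 := by
      rw [← hsumP]
      exact sum_range_le_of_zero f hf0 N hfN _
    have h6 : 0 ≤ ∑ m ∈ Finset.range (min (b * k) N), f m := Finset.sum_nonneg (fun m _ => hf0 m)
    have h7 : (0 : ℝ) ≤ ((b * k).choose (k - 1) : ℝ) := Nat.cast_nonneg _
    calc ∑ i ∈ It k, i.2 ≤ ((min (b * k) N).choose (k - 1) : ℝ)
          * ∑ m ∈ Finset.range (min (b * k) N), f m := h1.trans (h2.trans h3)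
      _ ≤ ((b * k).choose (k - 1) : ℝ) * ∑ a ∈ P, a.2.2 := mul_le_mul h4 h5 h6 h7
  · intro k
    calc (It k).card ≤ ((Finset.powersetCard k (Finset.range (min (b * k) N))).filter
          (fun A : Finset ℕ => ∀ m ∈ A, ∀ m' ∈ A, (e m).1 = (e m').1 → m = m')).card := Finset.card_image_le
      _ ≤ (Finset.powersetCard k (Finset.range (min (b * k) N))).card := Finset.card_filter_le _ _
      _ = (min (b * k) N).choose k := by rw [Finset.card_powersetCard, Finset.card_range]
      _ ≤ (b * k).choose k := Nat.choose_le_choose k (min_le_left _ _)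
  · intro H Sel hSelP hSelH hSelinj
    set B := (Finset.range N).filter (fun m => e m ∈ Sel) with hB
    have hBN : ∀ m ∈ B, m < N := fun m hm => Finset.mem_range.mp (Finset.mem_filter.mp hm).1
    have hBSel : ∀ m ∈ B, e m ∈ Sel := fun m hm => (Finset.mem_filter.mp hm).2
    have hBinj : Set.InjOn e (B : Set ℕ) := by
      intro m hm m' hm' h
      exact hinj (Finset.mem_coe.mpr (Finset.mem_range.mpr (hBN m (Finset.mem_coe.mp hm))))
        (Finset.mem_coe.mpr (Finset.mem_range.mpr (hBN m' (Finset.mem_coe.mp hm')))) h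
    have hBimg : B.image e = Sel := by
      apply Finset.Subset.antisymm
      · intro a ha
        obtain ⟨m, hm, rfl⟩ := Finset.mem_image.mp ha
        exact hBSel m hm
      · intro a ha
        have haP := hSelP ha
        rw [← himg] at haP
        obtain ⟨m, hm, rfl⟩ := Finset.mem_image.mp haP
        exact Finset.mem_image_of_mem _ (Finset.mem_filter.mpr ⟨hm, ha⟩)
    have hBsum : ∑ a ∈ Sel, a.2.2 = ∑ m ∈ B, f m := by
      rw [← hBimg, Finset.sum_image hBinj]
      apply Finset.sum_congr rfl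
      intro m hm
      simp only [hf]
      rw [if_pos (hBN m hm)]
    have hBcard : B.card ≤ N := by
      calc B.card ≤ (Finset.range N).card := Finset.card_filter_le _ _
        _ = N := Finset.card_range N
    obtain ⟨Pk, hPk1, hPk2⟩ := rank_select b f hfanti hf0 B
    refine ⟨fun k => (Pk k).map (fun m => ((B.filter (fun r => r ≤ m)).biUnion piece, f m)), ?_, ?_⟩
    · intro k i hki
      obtain ⟨m, hm, rfl⟩ := Option.map_eq_some_iff.mp hki
      obtain ⟨h1, h2, h3, h4, h5⟩ := hPk1 k m hm
      set A := B.filter (fun r => r ≤ m) with hA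
      have hAB : ∀ r ∈ A, r ∈ B := fun r hr => (Finset.mem_filter.mp hr).1
      have hAle : ∀ r ∈ A, r ≤ m := fun r hr => (Finset.mem_filter.mp hr).2
      have hmA : m ∈ A := Finset.mem_filter.mpr ⟨h3, le_rfl⟩
      have hsup : A.sup id = m :=
        le_antisymm (Finset.sup_le hAle) (Finset.le_sup (f := id) hmA)
      refine ⟨h1, h2.trans hBcard, ?_, ?_⟩
      · apply Finset.mem_image.mpr
        refine ⟨A, ?_, ?_⟩
        · apply Finset.mem_filter.mpr
          refine ⟨Finset.mem_powersetCard.mpr ⟨?_, h5⟩, ?_⟩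
          · intro r hr
            apply Finset.mem_range.mpr
            exact lt_min (lt_of_le_of_lt (hAle r hr) h4) (hBN r (hAB r hr))
          · intro r hr r' hr' h
            have hr1 := hAB r hr
            have hr1' := hAB r' hr'
            have h6 := hSelinj _ (hBSel r hr1) _ (hBSel r' hr1') h
            exact hBinj (Finset.mem_coe.mpr hr1) (Finset.mem_coe.mpr hr1') h6
        · rw [hsup]
      · show A.biUnion piece ⊆ H
        apply Finset.biUnion_subset.mpr
        intro r hr
        exact hSelH _ (hBSel r (hAB r hr))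
    · have h1 : ∑ r ∈ Finset.range (b * B.card), f r ≤ ∑ a ∈ P, a.2.2 := by
        rw [← hsumP]
        exact sum_range_le_of_zero f hf0 N hfN _
      have h2 : ∀ k, (Pk k).elim 0 f
          = cred ((Pk k).map (fun m => ((B.filter (fun r => r ≤ m)).biUnion piece, f m))) := by
        intro k
        cases Pk k with
        | none => rfl
        | some m => rfl
      have hcred0 : ∀ k, 0 ≤ cred ((Pk k).map
          (fun m => ((B.filter (fun r => r ≤ m)).biUnion piece, f m))) := by
        intro k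
        rw [← h2 k]
        cases Pk k with
        | none => exact le_rfl
        | some m => exact hf0 m
      have h3 : ∑ k ∈ Finset.Icc 1 B.card, (Pk k).elim 0 f
          ≤ ∑ k ∈ Finset.Icc 1 N, cred ((Pk k).map
            (fun m => ((B.filter (fun r => r ≤ m)).biUnion piece, f m))) := by
        rw [Finset.sum_congr rfl (fun k _ => h2 k)]
        apply Finset.sum_le_sum_of_subset_of_nonneg
        · exact Finset.Icc_subset_Icc le_rfl hBcard
        · intro k _ _
          exact hcred0 k
      have hb0 : (0 : ℝ) ≤ (b : ℝ) := Nat.cast_nonneg b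
      rw [hBsum]
      nlinarith [mul_le_mul_of_nonneg_left h3 hb0]

end Vale.Agent.H9
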