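import Mathlib
import Vale.Agent.H9.RankCover

namespace Vale.Agent.H9

open Finset

/-- Size of the sets carried by items of a given type. -/
def sg : List ℕ → ℕ
  | [] => 0
  | k :: τ => k * (1 + sg τ)

/-- Budget share of a type. -/
noncomputable def wt : List ℕ → ℝ
  | [] => 1
  | k :: τ => wt τ / 2 ^ (k + 1)

/-- Mass factor of a type. -/
noncomputable def rho (p : ℝ) : List ℕ → ℝ
  | [] => 1
  | k :: τ => ((⌈2 * rho p τ / (p * wt τ)⌉₊ * k).choose (k - 1) : ℝ) * rho p τ / p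

/-- Rank window factor of a type. -/
noncomputable def gam (p : ℝ) (τ : List ℕ) : ℕ := ⌈2 * rho p τ / (p * wt τ)⌉₊

/-- Bound on the number of items of a type. -/
noncomputable def Ncount (p : ℝ) : List ℕ → ℕ
  | [] => 1
  | k :: τ => (gam p τ * k).choose k

theorem wt_pos (τ : List ℕ) : 0 < wt τ := by
  induction τ with
  | nil => simp [wt]
  | cons k τ ih =>
    simp only [wt]
    positivity

theorem wt_le_one (τ : List ℕ) : wt τ ≤ 1 := by
  induction τ with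
  | nil => simp [wt]
  | cons k τ ih =>
    simp only [wt]
    have h2 : (1 : ℝ) ≤ 2 ^ (k + 1) := one_le_pow₀ (by norm_num)
    have h3 := wt_pos τ
    rw [div_le_one (by positivity)]
    linarith

theorem rho_cons (p : ℝ) (k : ℕ) (τ : List ℕ) :
    rho p (k :: τ) = ((gam p τ * k).choose (k - 1) : ℝ) * rho p τ / p := rfl

theorem rho_gam_ge (p : ℝ) (hp : 0 < p) (hp1 : p ≤ 1) (τ : List ℕ) :
    1 ≤ rho p τ ∧ 2 ≤ gam p τ := by
  have key : ∀ σ : List ℕ, 1 ≤ rho p σ → 2 ≤ gam p σ := by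
    intro σ h1
    have hw := wt_pos σ
    have hw1 := wt_le_one σ
    have hpw : 0 < p * wt σ := mul_pos hp hw
    have hpw1 : p * wt σ ≤ 1 := by nlinarith
    have h2 : (2 : ℝ) ≤ 2 * rho p σ / (p * wt σ) := by
      rw [le_div_iff₀ hpw]
      nlinarith
    have h3 : (2 : ℝ) ≤ (gam p σ : ℝ) := h2.trans (Nat.le_ceil _)
    exact_mod_cast h3
  induction τ with
  | nil => exact ⟨by simp [rho], key [] (by simp [rho])⟩
  | cons k τ ih =>
    have h1 : 1 ≤ rho p (k :: τ) := by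
      rw [rho_cons]
      have hc : 1 ≤ (gam p τ * k).choose (k - 1) := by
        apply Nat.choose_pos
        have := ih.2
        nlinarith [Nat.sub_le k 1]
      have hc' : (1 : ℝ) ≤ ((gam p τ * k).choose (k - 1) : ℝ) := by exact_mod_cast hc
      rw [le_div_iff₀ hp]
      nlinarith [ih.1]
    exact ⟨h1, key _ h1⟩

theorem gam_ge (p : ℝ) (τ : List ℕ) : 2 * rho p τ / (p * wt τ) ≤ (gam p τ : ℝ) :=
  Nat.le_ceil _

theorem gam_le (p : ℝ) (hp : 0 < p) (hp1 : p ≤ 1) (τ : List ℕ) :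
    (gam p τ : ℝ) ≤ 3 * rho p τ / (p * wt τ) := by
  have h1 := (rho_gam_ge p hp hp1 τ).1
  have hw := wt_pos τ
  have hw1 := wt_le_one τ
  have hpw : 0 < p * wt τ := mul_pos hp hw
  have hpw1 : p * wt τ ≤ 1 := by nlinarith
  have h2 : (2 : ℝ) ≤ 2 * rho p τ / (p * wt τ) := by
    rw [le_div_iff₀ hpw]
    nlinarith
  have h3 : (gam p τ : ℝ) < 2 * rho p τ / (p * wt τ) + 1 :=
    Nat.ceil_lt_add_one (by linarith)
  have h4 : 3 * rho p τ / (p * wt τ) = 2 * rho p τ / (p * wt τ) + (2 * rho p τ / (p * wt τ)) / 2 := by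
    ring
  linarith

/-- Binomial estimate `C(bk, k-1) ≤ 3^k b^(k-1)`. -/
theorem choose_pred_le (b k : ℕ) (hk : 1 ≤ k) :
    ((b * k).choose (k - 1) : ℝ) ≤ 3 ^ k * (b : ℝ) ^ (k - 1) := by
  obtain ⟨j, rfl⟩ : ∃ j, k = j + 1 := ⟨k - 1, by omega⟩
  simp only [Nat.add_sub_cancel]
  have h1 : ((b * (j + 1)).choose j : ℝ) ≤ ((b * (j + 1) : ℕ) : ℝ) ^ j / (j.factorial : ℝ) :=
    Nat.choose_le_pow_div j (b * (j + 1))
  have h3 := Real.pow_div_factorial_le_exp (x := ((j + 1 : ℕ) : ℝ)) (Nat.cast_nonneg _) (j + 1)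
  have h4 : Real.exp ((j + 1 : ℕ) : ℝ) = Real.exp 1 ^ (j + 1) := by
    rw [← Real.exp_nat_mul, mul_one]
  have h5 : Real.exp 1 ^ (j + 1) ≤ 3 ^ (j + 1) :=
    pow_le_pow_left₀ (Real.exp_pos 1).le Real.exp_one_lt_three.le (j + 1)
  have hj : (0 : ℝ) < (j.factorial : ℝ) := by exact_mod_cast j.factorial_pos
  have h6 : ((j + 1 : ℕ) : ℝ) ^ (j + 1) / ((j + 1).factorial : ℝ)
      = ((j + 1 : ℕ) : ℝ) ^ j / (j.factorial : ℝ) := by
    rw [Nat.factorial_succ]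
    push_cast
    field_simp
    ring
  have h7 : ((b * (j + 1) : ℕ) : ℝ) ^ j / (j.factorial : ℝ)
      = (b : ℝ) ^ j * (((j + 1 : ℕ) : ℝ) ^ j / (j.factorial : ℝ)) := by
    push_cast
    rw [mul_pow, mul_div_assoc]
  have hb : 0 ≤ (b : ℝ) ^ j := pow_nonneg (Nat.cast_nonneg b) j
  have h8 : ((j + 1 : ℕ) : ℝ) ^ j / (j.factorial : ℝ) ≤ 3 ^ (j + 1) := by
    rw [← h6]
    linarith
  calc ((b * (j + 1)).choose j : ℝ) ≤ (b : ℝ) ^ j * (((j + 1 : ℕ) : ℝ) ^ j / (j.factorial : ℝ)) := by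
        rw [← h7]
        exact h1
    _ ≤ (b : ℝ) ^ j * 3 ^ (j + 1) := mul_le_mul_of_nonneg_left h8 hb
    _ = 3 ^ (j + 1) * (b : ℝ) ^ j := by ring

/-- The normalised cost parameter of a type. -/
noncomputable def yv (p : ℝ) (τ : List ℕ) : ℝ := 9 * rho p τ * (p / 64) ^ sg τ / (64 * wt τ)

/-- Explicit majorant of `yv`. -/
noncomputable def uv : List ℕ → ℝ
  | [] => 9 / 64
  | k :: τ => uv τ * (3 / 16) * (9 / 32) ^ (k - 1)

theorem uv_pos (τ : List ℕ) : 0 < uv τ := by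
  induction τ with
  | nil => simp [uv]
  | cons k τ ih =>
    simp only [uv]
    positivity

theorem uv_le (τ : List ℕ) : uv τ ≤ 9 / 64 := by
  induction τ with
  | nil => simp [uv]
  | cons k τ ih =>
    simp only [uv]
    have h1 : (9 / 32 : ℝ) ^ (k - 1) ≤ 1 := pow_le_one₀ (by norm_num) (by norm_num)
    have h2 := uv_pos τ
    have h3 : 0 ≤ (9 / 32 : ℝ) ^ (k - 1) := by positivity
    nlinarith

theorem yv_nonneg (p : ℝ) (hp : 0 < p) (hp1 : p ≤ 1) (τ : List ℕ) : 0 ≤ yv p τ := by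
  have h1 := (rho_gam_ge p hp hp1 τ).1
  have hw := wt_pos τ
  unfold yv
  positivity

/-- With `a = rho / (p wt)` and `Q = (p/64)^(1 + sg)`, one has `yv = 9 a Q`. -/
theorem yv_eq (p : ℝ) (hp : 0 < p) (τ : List ℕ) :
    yv p τ = 9 * (rho p τ / (p * wt τ)) * (p / 64) ^ (1 + sg τ) := by
  have hw := wt_pos τ
  unfold yv
  rw [pow_add, pow_one]
  field_simp

theorem gam_le' (p : ℝ) (hp : 0 < p) (hp1 : p ≤ 1) (τ : List ℕ) :
    (gam p τ : ℝ) ≤ 3 * (rho p τ / (p * wt τ)) := by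
  have := gam_le p hp hp1 τ
  rw [mul_div_assoc] at this
  exact this

theorem yv_cons_le (p : ℝ) (hp : 0 < p) (hp1 : p ≤ 1) (τ : List ℕ) (k : ℕ) (hk : 1 ≤ k) :
    yv p (k :: τ) ≤ 3 / 32 * (2 * yv p τ) ^ k := by
  obtain ⟨j, rfl⟩ : ∃ j, k = j + 1 := ⟨k - 1, by omega⟩
  have hw := wt_pos τ
  have hρ := (rho_gam_ge p hp hp1 τ).1
  set a := rho p τ / (p * wt τ) with ha
  set Q := (p / 64) ^ (1 + sg τ) with hQ
  have ha0 : 0 < a := by rw [ha]; positivity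
  have hQ0 : 0 ≤ Q := by rw [hQ]; positivity
  have hC : ((gam p τ * (j + 1)).choose (j + 1 - 1) : ℝ) ≤ 3 ^ (j + 1) * (3 * a) ^ j := by
    have h1 := choose_pred_le (gam p τ) (j + 1) (by omega)
    simp only [Nat.add_sub_cancel] at h1 ⊢
    have h2 : (gam p τ : ℝ) ^ j ≤ (3 * a) ^ j :=
      pow_le_pow_left₀ (Nat.cast_nonneg _) (gam_le' p hp hp1 τ) j
    have h3 : (0 : ℝ) ≤ 3 ^ (j + 1) := by positivity
    exact h1.trans (mul_le_mul_of_nonneg_left h2 h3)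
  have hy : yv p ((j + 1) :: τ)
      = 9 / 64 * ((gam p τ * (j + 1)).choose (j + 1 - 1) : ℝ) * a * Q ^ (j + 1) * 2 ^ (j + 2) := by
    unfold yv
    rw [rho_cons, ha, hQ]
    simp only [sg, wt]
    rw [pow_mul' (p / 64) (j + 1) (1 + sg τ)]
    field_simp
  have hy2 : yv p τ = 9 * a * Q := yv_eq p hp τ
  rw [hy, hy2]
  have h4 : 9 / 64 * ((gam p τ * (j + 1)).choose (j + 1 - 1) : ℝ) * a * Q ^ (j + 1) * 2 ^ (j + 2)
      ≤ 9 / 64 * (3 ^ (j + 1) * (3 * a) ^ j) * a * Q ^ (j + 1) * 2 ^ (j + 2) := by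
    have hQj : 0 ≤ Q ^ (j + 1) := pow_nonneg hQ0 _
    have h2j : (0 : ℝ) ≤ 2 ^ (j + 2) := by positivity
    gcongr
  refine h4.trans (le_of_eq ?_)
  have h18 : (2 * (9 * a * Q)) ^ (j + 1)
      = 2 ^ (j + 1) * 3 ^ (j + 1) * 3 ^ (j + 1) * a ^ (j + 1) * Q ^ (j + 1) := by
    rw [show 2 * (9 * a * Q) = 2 * 3 * 3 * a * Q by ring]
    simp only [mul_pow]
  rw [h18]
  ring

theorem yv_le_uv (p : ℝ) (hp : 0 < p) (hp1 : p ≤ 1) (τ : List ℕ) (hτ : ∀ k ∈ τ, 1 ≤ k) :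
    yv p τ ≤ uv τ := by
  induction τ with
  | nil => simp [yv, uv, rho, sg, wt]
  | cons k τ ih =>
    have hk : 1 ≤ k := hτ k (by simp)
    have ih' := ih (fun k' hk' => hτ k' (by simp [hk']))
    obtain ⟨j, rfl⟩ : ∃ j, k = j + 1 := ⟨k - 1, by omega⟩
    have h1 := yv_cons_le p hp hp1 τ (j + 1) (by omega)
    have h0 := yv_nonneg p hp hp1 τ
    have hu := uv_le τ
    have h2 : (2 * yv p τ) ^ (j + 1) ≤ (9 / 32) ^ j * (2 * uv τ) := by
      rw [pow_succ]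
      apply mul_le_mul _ (by linarith) (by linarith) (by positivity)
      exact pow_le_pow_left₀ (by linarith) (by linarith) j
    simp only [uv, Nat.add_sub_cancel]
    linarith

theorem cost_cons_le (p : ℝ) (hp : 0 < p) (hp1 : p ≤ 1) (τ : List ℕ) (hτ : ∀ k ∈ τ, 1 ≤ k)
    (k : ℕ) (hk : 1 ≤ k) :
    (Ncount p (k :: τ) : ℝ) * (p / 64) ^ sg (k :: τ) ≤ 16 / 3 * uv (k :: τ) := by
  obtain ⟨j, rfl⟩ : ∃ j, k = j + 1 := ⟨k - 1, by omega⟩
  have hw := wt_pos τ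
  have hρ := (rho_gam_ge p hp hp1 τ).1
  set a := rho p τ / (p * wt τ) with ha
  set Q := (p / 64) ^ (1 + sg τ) with hQ
  have ha0 : 0 < a := by rw [ha]; positivity
  have hQ0 : 0 ≤ Q := by rw [hQ]; positivity
  have h1 : (Ncount p ((j + 1) :: τ) : ℝ) * (p / 64) ^ sg ((j + 1) :: τ)
      = ((gam p τ * (j + 1)).choose (j + 1) : ℝ) * Q ^ (j + 1) := by
    simp only [Ncount, sg]
    rw [pow_mul' (p / 64) (j + 1) (1 + sg τ)]
  have h2 := choose_mul_pow_le (gam p τ) (j + 1) Q hQ0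
  have hy2 : yv p τ = 9 * a * Q := yv_eq p hp τ
  have h3 : 3 * (gam p τ : ℝ) * Q ≤ yv p τ := by
    rw [hy2]
    have hg : (gam p τ : ℝ) ≤ 3 * a := gam_le' p hp hp1 τ
    nlinarith
  have h30 : 0 ≤ 3 * (gam p τ : ℝ) * Q := by positivity
  have h4 : (3 * (gam p τ : ℝ) * Q) ^ (j + 1) ≤ (yv p τ) ^ (j + 1) :=
    pow_le_pow_left₀ h30 h3 _
  have h0 := yv_nonneg p hp hp1 τ
  have hyu := yv_le_uv p hp hp1 τ hτ
  have hu := uv_le τ
  have h5 : (yv p τ) ^ (j + 1) ≤ (9 / 32) ^ j * uv τ := by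
    rw [pow_succ]
    apply mul_le_mul _ hyu h0 (by positivity)
    exact pow_le_pow_left₀ h0 (by linarith) j
  rw [h1]
  simp only [uv, Nat.add_sub_cancel]
  linarith

end Vale.Agent.H9
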