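import Mathlib
import Vale.Agent.H9.TreeParams

namespace Vale.Agent.H9

open Finset

/-- One step of the summation over lists: heads and tails. -/
theorem list_sum_step (U : List ℕ → ℝ) (v : ℕ → ℝ) (c B : ℝ)
    (hU0 : ∀ τ, 0 ≤ U τ) (hv0 : ∀ k, 0 ≤ v k)
    (hUc : ∀ k τ, U (k :: τ) ≤ v k * U τ)
    (hsum : ∀ A : Finset ℕ, (∀ k ∈ A, 1 ≤ k) → ∑ k ∈ A, v k ≤ c)
    (L : ℕ)
    (hL : ∀ F : Finset (List ℕ), (∀ τ ∈ F, τ.length ≤ L ∧ ∀ k ∈ τ, 1 ≤ k) → ∑ τ ∈ F, U τ ≤ B)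
    (F : Finset (List ℕ)) (hF : ∀ τ ∈ F, τ.length ≤ L + 1 ∧ ∀ k ∈ τ, 1 ≤ k) :
    ∑ τ ∈ F.filter (fun τ => τ ≠ []), U τ ≤ c * B := by
  set F' := F.filter (fun τ => τ ≠ []) with hF'
  set φ : List ℕ → ℕ × List ℕ := fun τ => (τ.headI, τ.tail) with hφ
  have hmem : ∀ τ ∈ F', τ ∈ F ∧ τ ≠ [] := fun τ h => Finset.mem_filter.mp h
  have h1 : ∀ τ ∈ F', U τ ≤ v (φ τ).1 * U (φ τ).2 := by
    intro τ hτ
    rcases τ with _ | ⟨k, σ⟩
    · exact absurd rfl (hmem _ hτ).2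
    · exact hUc k σ
  have hinj : Set.InjOn φ (F' : Set (List ℕ)) := by
    intro τ hτ τ' hτ' h
    have h2 := (hmem τ (Finset.mem_coe.mp hτ)).2
    have h2' := (hmem τ' (Finset.mem_coe.mp hτ')).2
    rcases τ with _ | ⟨k, σ⟩
    · exact absurd rfl h2
    rcases τ' with _ | ⟨k', σ'⟩
    · exact absurd rfl h2'
    simp only [hφ, List.headI_cons, List.tail_cons, Prod.mk.injEq] at h
    rw [h.1, h.2]
  set Hd := F'.image (fun τ => τ.headI) with hHd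
  set Tl := F'.image (fun τ => τ.tail) with hTl
  have hsub : F'.image φ ⊆ Hd ×ˢ Tl := by
    intro x hx
    obtain ⟨τ, hτ, rfl⟩ := Finset.mem_image.mp hx
    exact Finset.mem_product.mpr
      ⟨Finset.mem_image_of_mem _ hτ, Finset.mem_image_of_mem _ hτ⟩
  have hHd1 : ∀ k ∈ Hd, 1 ≤ k := by
    intro k hk
    obtain ⟨τ, hτ, rfl⟩ := Finset.mem_image.mp hk
    obtain ⟨hτF, hne⟩ := hmem τ hτ
    rcases τ with _ | ⟨k, σ⟩
    · exact absurd rfl hne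
    · exact (hF _ hτF).2 k (by simp)
  have hTl1 : ∀ σ ∈ Tl, σ.length ≤ L ∧ ∀ k ∈ σ, 1 ≤ k := by
    intro σ hσ
    obtain ⟨τ, hτ, rfl⟩ := Finset.mem_image.mp hσ
    obtain ⟨hτF, hne⟩ := hmem τ hτ
    rcases τ with _ | ⟨k, σ⟩
    · exact absurd rfl hne
    · have h3 := hF _ hτF
      refine ⟨?_, fun k' hk' => h3.2 k' (by simp [List.tail_cons] at hk'; simp [hk'])⟩
      have := h3.1
      simp only [List.length_cons] at this
      simp only [List.tail_cons]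
      omega
  have hHdsum := hsum Hd hHd1
  have hTlsum := hL Tl hTl1
  have hTl0 : 0 ≤ ∑ σ ∈ Tl, U σ := Finset.sum_nonneg (fun σ _ => hU0 σ)
  have hHd0 : 0 ≤ ∑ k ∈ Hd, v k := Finset.sum_nonneg (fun k _ => hv0 k)
  calc ∑ τ ∈ F', U τ ≤ ∑ τ ∈ F', v (φ τ).1 * U (φ τ).2 := Finset.sum_le_sum h1
    _ = ∑ x ∈ F'.image φ, v x.1 * U x.2 :=
        (Finset.sum_image (f := fun x : ℕ × List ℕ => v x.1 * U x.2) hinj).symm
    _ ≤ ∑ x ∈ Hd ×ˢ Tl, v x.1 * U x.2 :=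
        Finset.sum_le_sum_of_subset_of_nonneg hsub
          (fun x _ _ => mul_nonneg (hv0 _) (hU0 _))
    _ = (∑ k ∈ Hd, v k) * ∑ σ ∈ Tl, U σ := by
        rw [Finset.sum_product, Finset.sum_mul_sum]
    _ ≤ c * B := mul_le_mul hHdsum hTlsum hTl0 (hHd0.trans hHdsum)

/-- Sum of a submultiplicative weight over a finite set of lists with positive entries. -/
theorem list_sum_le (U : List ℕ → ℝ) (v : ℕ → ℝ) (c : ℝ)
    (hU0 : ∀ τ, 0 ≤ U τ) (hv0 : ∀ k, 0 ≤ v k)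
    (hUc : ∀ k τ, U (k :: τ) ≤ v k * U τ)
    (hsum : ∀ A : Finset ℕ, (∀ k ∈ A, 1 ≤ k) → ∑ k ∈ A, v k ≤ c)
    (hc0 : 0 ≤ c) (hc1 : c < 1) :
    ∀ (L : ℕ) (F : Finset (List ℕ)), (∀ τ ∈ F, τ.length ≤ L ∧ ∀ k ∈ τ, 1 ≤ k) →
      ∑ τ ∈ F, U τ ≤ U [] / (1 - c) := by
  have h1c : 0 < 1 - c := by linarith
  have hnil : ∀ F : Finset (List ℕ), ∑ τ ∈ F.filter (fun τ => τ = []), U τ ≤ U [] := by
    intro F
    have hsub : F.filter (fun τ => τ = []) ⊆ {[]} := by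
      intro τ hτ
      exact Finset.mem_singleton.mpr (Finset.mem_filter.mp hτ).2
    calc ∑ τ ∈ F.filter (fun τ => τ = []), U τ ≤ ∑ τ ∈ ({[]} : Finset (List ℕ)), U τ :=
          Finset.sum_le_sum_of_subset_of_nonneg hsub (fun τ _ _ => hU0 τ)
      _ = U [] := by simp
  have hdiv : U [] + c * (U [] / (1 - c)) = U [] / (1 - c) := by
    field_simp
    ring
  intro L
  induction L with
  | zero =>
    intro F hF
    have h0 : ∑ τ ∈ F.filter (fun τ => ¬ τ = []), U τ = 0 := by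
      apply Finset.sum_eq_zero
      intro τ hτ
      obtain ⟨hτF, hne⟩ := Finset.mem_filter.mp hτ
      exact absurd (List.length_eq_zero_iff.mp (Nat.le_zero.mp (hF τ hτF).1)) hne
    have h2 := Finset.sum_filter_add_sum_filter_not F (fun τ => τ = []) U
    have h3 := hnil F
    have h4 : 0 ≤ c * (U [] / (1 - c)) := mul_nonneg hc0 (div_nonneg (hU0 _) h1c.le)
    linarith
  | succ L ih =>
    intro F hF
    have h0 := list_sum_step U v c (U [] / (1 - c)) hU0 hv0 hUc hsum L ih F hF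
    have h2 := Finset.sum_filter_add_sum_filter_not F (fun τ => τ = []) U
    have h3 := hnil F
    linarith

theorem list_sum_ne_nil_le (U : List ℕ → ℝ) (v : ℕ → ℝ) (c : ℝ)
    (hU0 : ∀ τ, 0 ≤ U τ) (hv0 : ∀ k, 0 ≤ v k)
    (hUc : ∀ k τ, U (k :: τ) ≤ v k * U τ)
    (hsum : ∀ A : Finset ℕ, (∀ k ∈ A, 1 ≤ k) → ∑ k ∈ A, v k ≤ c)
    (hc0 : 0 ≤ c) (hc1 : c < 1)
    (F : Finset (List ℕ)) (hF : ∀ τ ∈ F, ∀ k ∈ τ, 1 ≤ k) :
    ∑ τ ∈ F.filter (fun τ => τ ≠ []), U τ ≤ c * (U [] / (1 - c)) := by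
  apply list_sum_step U v c (U [] / (1 - c)) hU0 hv0 hUc hsum (F.sup List.length)
    (list_sum_le U v c hU0 hv0 hUc hsum hc0 hc1 (F.sup List.length)) F
  intro τ hτ
  refine ⟨?_, hF τ hτ⟩
  have : τ.length ≤ F.sup List.length := Finset.le_sup (f := List.length) hτ
  omega

theorem list_sum_all_le (U : List ℕ → ℝ) (v : ℕ → ℝ) (c : ℝ)
    (hU0 : ∀ τ, 0 ≤ U τ) (hv0 : ∀ k, 0 ≤ v k)
    (hUc : ∀ k τ, U (k :: τ) ≤ v k * U τ)
    (hsum : ∀ A : Finset ℕ, (∀ k ∈ A, 1 ≤ k) → ∑ k ∈ A, v k ≤ c)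
    (hc0 : 0 ≤ c) (hc1 : c < 1)
    (F : Finset (List ℕ)) (hF : ∀ τ ∈ F, ∀ k ∈ τ, 1 ≤ k) :
    ∑ τ ∈ F, U τ ≤ U [] / (1 - c) := by
  apply list_sum_le U v c hU0 hv0 hUc hsum hc0 hc1 (F.sup List.length) F
  intro τ hτ
  exact ⟨Finset.le_sup (f := List.length) hτ, hF τ hτ⟩

/-- A geometric sum over a finite set of positive integers. -/
theorem geom_pred_sum_le (r : ℝ) (hr0 : 0 ≤ r) (hr1 : r < 1) (A : Finset ℕ)
    (hA : ∀ k ∈ A, 1 ≤ k) : ∑ k ∈ A, r ^ (k - 1) ≤ 1 / (1 - r) := by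
  have hinj : Set.InjOn (fun k : ℕ => k - 1) (A : Set ℕ) := by
    intro a ha b hb h
    have h1 := hA a (Finset.mem_coe.mp ha)
    have h2 := hA b (Finset.mem_coe.mp hb)
    simp only at h
    omega
  have hsub : A.image (fun k : ℕ => k - 1) ⊆ Finset.range (A.sup id) := by
    intro j hj
    obtain ⟨k, hk, rfl⟩ := Finset.mem_image.mp hj
    have h1 := hA k hk
    have h2 : k ≤ A.sup id := Finset.le_sup (f := id) hk
    exact Finset.mem_range.mpr (by omega)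
  have hne : r ≠ 1 := ne_of_lt hr1
  have h1r : 0 < 1 - r := by linarith
  calc ∑ k ∈ A, r ^ (k - 1) = ∑ j ∈ A.image (fun k : ℕ => k - 1), r ^ j :=
        (Finset.sum_image hinj).symm
    _ ≤ ∑ j ∈ Finset.range (A.sup id), r ^ j :=
        Finset.sum_le_sum_of_subset_of_nonneg hsub (fun j _ _ => pow_nonneg hr0 j)
    _ = (r ^ (A.sup id) - 1) / (r - 1) := geom_sum_eq hne _
    _ = (1 - r ^ (A.sup id)) / (1 - r) := by
        rw [← neg_sub (r ^ (A.sup id)) 1, ← neg_sub r 1, neg_div_neg_eq]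
    _ ≤ 1 / (1 - r) := by
        apply div_le_div_of_nonneg_right _ h1r.le
        have := pow_nonneg hr0 (A.sup id)
        linarith

theorem wt_sum_le (F : Finset (List ℕ)) (hF : ∀ τ ∈ F, ∀ k ∈ τ, 1 ≤ k) :
    ∑ τ ∈ F, wt τ ≤ 2 := by
  have h := list_sum_all_le wt (fun k => 1 / 2 ^ (k + 1)) (1 / 2)
    (fun τ => (wt_pos τ).le) (fun k => by positivity)
    (fun k τ => by
      simp only [wt]
      rw [div_eq_mul_inv, mul_comm, one_div])
    (fun A hA => by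
      have h1 := geom_pred_sum_le (1 / 2) (by norm_num) (by norm_num) A hA
      have h2 : ∀ k ∈ A, (1 : ℝ) / 2 ^ (k + 1) = 1 / 4 * (1 / 2) ^ (k - 1) := by
        intro k hk
        obtain ⟨j, rfl⟩ : ∃ j, k = j + 1 := ⟨k - 1, by have := hA k hk; omega⟩
        simp only [Nat.add_sub_cancel]
        rw [one_div_pow, pow_succ, pow_succ]
        field_simp
        norm_num
      rw [Finset.sum_congr rfl h2, ← Finset.mul_sum]
      norm_num at h1 ⊢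
      linarith)
    (by norm_num) (by norm_num) F hF
  simp only [wt] at h
  norm_num at h
  exact h

theorem uv_sum_le (F : Finset (List ℕ)) (hF : ∀ τ ∈ F, ∀ k ∈ τ, 1 ≤ k) :
    ∑ τ ∈ F.filter (fun τ => τ ≠ []), uv τ ≤ 54 / 1088 := by
  have h := list_sum_ne_nil_le uv (fun k => 3 / 16 * (9 / 32) ^ (k - 1)) (6 / 23)
    (fun τ => (uv_pos τ).le) (fun k => by positivity)
    (fun k τ => by
      simp only [uv]
      exact le_of_eq (by ring))
    (fun A hA => by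
      have h1 := geom_pred_sum_le (9 / 32) (by norm_num) (by norm_num) A hA
      rw [← Finset.mul_sum]
      norm_num at h1 ⊢
      linarith)
    (by norm_num) (by norm_num) F hF
  simp only [uv] at h
  norm_num at h
  linarith

end Vale.Agent.H9
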