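import Mathlib
import Vale.Agent.H9.TreeSums
import Vale.Agent.H9.TreeCons

namespace Vale.Agent.H9

open Finset

/-- Total weight of the sets inside `H`. -/
def Zsum {X : Type*} (g : Finset X → ℝ) (H : Finset X) : ℝ := ∑ S ∈ H.powerset, g S

/-- Cost of a weight function at `p`. -/
def Mass {X : Type*} [Fintype X] (g : Finset X → ℝ) (p : ℝ) : ℝ := ∑ S, g S * p ^ S.card

/-- Link of a weight function at a point. -/
def link {X : Type*} [DecidableEq X] (g : Finset X → ℝ) (x : X) (R : Finset X) : ℝ :=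
  if x ∈ R then 0 else g (insert x R)

/-- Definition by cases on a list of naturals. -/
def listCases {α : Type*} (d : α) (s : List ℕ → ℕ → α) : List ℕ → α
  | [] => d
  | k :: τ => s τ k

/-- Item systems: typed families of items (a set and a credit) dominating a weight function. -/
def IsSys {X : Type*} [Fintype X] [DecidableEq X] (p : ℝ) (g : Finset X → ℝ)
    (types : Finset (List ℕ)) (items : List ℕ → Finset (Finset X × ℝ)) : Prop :=
  (∀ τ ∈ types, ∀ k ∈ τ, 1 ≤ k) ∧
  (∀ τ, τ ∉ types → items τ = ∅) ∧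
  (∀ τ, ∀ i ∈ items τ, 0 ≤ i.2 ∧ i.1.card = sg τ ∧ ∀ y ∈ i.1, ∃ S, g S ≠ 0 ∧ y ∈ S) ∧
  (∀ H : Finset X, ∃ sel : List ℕ → Option (Finset X × ℝ),
      (∀ τ i, sel τ = some i → i ∈ items τ ∧ i.1 ⊆ H) ∧
      Zsum g H ≤ ∑ τ ∈ types, cred (sel τ)) ∧
  (∀ τ, ∑ i ∈ items τ, i.2 ≤ rho p τ * Mass g p) ∧
  (∀ τ, (items τ).card ≤ Ncount p τ)

section

variable {X : Type*} [Fintype X] [DecidableEq X]

omit [Fintype X] in
theorem link_nonneg (g : Finset X → ℝ) (hg : ∀ S, 0 ≤ g S) (x : X) (R : Finset X) :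
    0 ≤ link g x R := by
  unfold link
  split_ifs
  · exact le_rfl
  · exact hg _

omit [Fintype X] in
theorem link_ne_zero (g : Finset X → ℝ) (x : X) (R : Finset X) (h : link g x R ≠ 0) :
    x ∉ R ∧ g (insert x R) ≠ 0 := by
  unfold link at h
  by_cases hx : x ∈ R
  · rw [if_pos hx] at h
    exact absurd rfl h
  · rw [if_neg hx] at h
    exact ⟨hx, h⟩

omit [DecidableEq X] in
theorem mass_nonneg (g : Finset X → ℝ) (hg : ∀ S, 0 ≤ g S) (p : ℝ) (hp0 : 0 ≤ p) :
    0 ≤ Mass g p :=
  Finset.sum_nonneg (fun S _ => mul_nonneg (hg S) (pow_nonneg hp0 _))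

omit [Fintype X] in
theorem sum_mem_le_link (g : Finset X → ℝ) (hg : ∀ S, 0 ≤ g S) (x : X) (H : Finset X) :
    ∑ S ∈ H.powerset, (if x ∈ S then g S else 0) ≤ Zsum (link g x) H := by
  rw [← Finset.sum_filter]
  unfold Zsum
  have h1 : ∀ S ∈ H.powerset.filter (fun S => x ∈ S), g S = link g x (S.erase x) := by
    intro S hS
    have hx := (Finset.mem_filter.mp hS).2
    unfold link
    rw [if_neg (Finset.notMem_erase x S), Finset.insert_erase hx]
  rw [Finset.sum_congr rfl h1]
  have hinj : Set.InjOn (fun S : Finset X => S.erase x)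
      (H.powerset.filter (fun S => x ∈ S) : Set (Finset X)) := by
    intro S hS S' hS' h
    have hx := (Finset.mem_filter.mp (Finset.mem_coe.mp hS)).2
    have hx' := (Finset.mem_filter.mp (Finset.mem_coe.mp hS')).2
    simp only at h
    rw [← Finset.insert_erase hx, ← Finset.insert_erase hx', h]
  rw [← Finset.sum_image (f := fun R => link g x R) hinj]
  apply Finset.sum_le_sum_of_subset_of_nonneg
  · intro R hR
    obtain ⟨S, hS, rfl⟩ := Finset.mem_image.mp hR
    have hSH := Finset.mem_powerset.mp (Finset.mem_filter.mp hS).1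
    exact Finset.mem_powerset.mpr ((Finset.erase_subset _ _).trans hSH)
  · intro R _ _
    exact link_nonneg g hg x R

omit [Fintype X] in
/-- The weight inside `H` is at most the weight of the empty set plus the link weights at the
roots lying in `H`, as soon as every nonempty support set contains a root. -/
theorem zsum_le_links (g : Finset X → ℝ) (hg : ∀ S, 0 ≤ g S) (Rt : Finset X)
    (hR1 : ∀ S, g S ≠ 0 → S.Nonempty → ∃ x ∈ Rt, x ∈ S) (H : Finset X) :
    Zsum g H ≤ g ∅ + ∑ x ∈ Rt.filter (fun x => x ∈ H), Zsum (link g x) H := by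
  have hterm0 : ∀ (S : Finset X) (x : X), 0 ≤ (if x ∈ S then g S else 0) := by
    intro S x
    split_ifs
    · exact hg S
    · exact le_rfl
  have h1 : ∀ S ∈ H.powerset, g S ≤ (if S = ∅ then g ∅ else 0)
      + ∑ x ∈ Rt.filter (fun x => x ∈ H), (if x ∈ S then g S else 0) := by
    intro S hS
    have hSH := Finset.mem_powerset.mp hS
    have hsum0 : 0 ≤ ∑ x ∈ Rt.filter (fun x => x ∈ H), (if x ∈ S then g S else 0) :=
      Finset.sum_nonneg (fun x _ => hterm0 S x)
    by_cases hS0 : S = ∅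
    · subst hS0
      rw [if_pos rfl]
      linarith
    · rw [if_neg hS0, zero_add]
      by_cases hgS : g S = 0
      · rw [hgS]
        exact Finset.sum_nonneg (fun x _ => by split_ifs <;> exact le_rfl)
      · obtain ⟨x, hxRt, hxS⟩ := hR1 S hgS (Finset.nonempty_iff_ne_empty.mpr hS0)
        have hxmem : x ∈ Rt.filter (fun x => x ∈ H) := Finset.mem_filter.mpr ⟨hxRt, hSH hxS⟩
        have h2 := Finset.single_le_sum (f := fun x => if x ∈ S then g S else 0)
          (fun y _ => hterm0 S y) hxmem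
        simp only [if_pos hxS] at h2
        exact h2
  calc Zsum g H = ∑ S ∈ H.powerset, g S := rfl
    _ ≤ ∑ S ∈ H.powerset, ((if S = ∅ then g ∅ else 0)
          + ∑ x ∈ Rt.filter (fun x => x ∈ H), (if x ∈ S then g S else 0)) := Finset.sum_le_sum h1
    _ = g ∅ + ∑ x ∈ Rt.filter (fun x => x ∈ H), ∑ S ∈ H.powerset, (if x ∈ S then g S else 0) := by
        rw [Finset.sum_add_distrib, Finset.sum_comm,
          Finset.sum_ite_eq' H.powerset ∅ (fun _ => g ∅), if_pos (Finset.empty_mem_powerset H)]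
    _ ≤ g ∅ + ∑ x ∈ Rt.filter (fun x => x ∈ H), Zsum (link g x) H := by
        have := Finset.sum_le_sum (s := Rt.filter (fun x => x ∈ H))
          (fun x _ => sum_mem_le_link g hg x H)
        linarith

theorem mass_link_le (g : Finset X → ℝ) (hg : ∀ S, 0 ≤ g S) (p : ℝ) (hp0 : 0 ≤ p) (x : X) :
    p * Mass (link g x) p ≤ ∑ S, (if x ∈ S then g S * p ^ S.card else 0) := by
  unfold Mass
  rw [Finset.mul_sum]
  have h1 : ∀ R ∈ (Finset.univ : Finset (Finset X)), p * (link g x R * p ^ R.card)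
      = if x ∉ R then g (insert x R) * p ^ (insert x R).card else 0 := by
    intro R _
    unfold link
    by_cases h : x ∈ R
    · rw [if_pos h, if_neg (not_not.mpr h)]
      ring
    · rw [if_neg h, if_pos h, Finset.card_insert_of_notMem h, pow_succ]
      ring
  rw [Finset.sum_congr rfl h1, ← Finset.sum_filter, ← Finset.sum_filter]
  have hinj : Set.InjOn (fun R : Finset X => insert x R)
      ((Finset.univ : Finset (Finset X)).filter (fun R => x ∉ R) : Set (Finset X)) := by
    intro R hR R' hR' h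
    have hx := (Finset.mem_filter.mp (Finset.mem_coe.mp hR)).2
    have hx' := (Finset.mem_filter.mp (Finset.mem_coe.mp hR')).2
    simp only at h
    rw [← Finset.erase_insert hx, ← Finset.erase_insert hx', h]
  rw [← Finset.sum_image (f := fun S : Finset X => g S * p ^ S.card) hinj]
  apply Finset.sum_le_sum_of_subset_of_nonneg
  · intro S hS
    obtain ⟨R, _, rfl⟩ := Finset.mem_image.mp hS
    exact Finset.mem_filter.mpr ⟨Finset.mem_univ _, Finset.mem_insert_self _ _⟩
  · intro S _ _
    exact mul_nonneg (hg S) (pow_nonneg hp0 _)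

/-- Cost of the links at the roots, when no support set contains two roots. -/
theorem mass_links_le (g : Finset X → ℝ) (hg : ∀ S, 0 ≤ g S) (p : ℝ) (hp0 : 0 ≤ p)
    (Rt : Finset X)
    (hR2 : ∀ S, g S ≠ 0 → ∀ x ∈ Rt, ∀ y ∈ Rt, x ∈ S → y ∈ S → x = y) :
    g ∅ + p * ∑ x ∈ Rt, Mass (link g x) p ≤ Mass g p := by
  have h1 : p * ∑ x ∈ Rt, Mass (link g x) p
      ≤ ∑ x ∈ Rt, ∑ S, (if x ∈ S then g S * p ^ S.card else 0) := by
    rw [Finset.mul_sum]
    exact Finset.sum_le_sum (fun x _ => mass_link_le g hg p hp0 x)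
  rw [Finset.sum_comm] at h1
  have h2 : ∀ S ∈ (Finset.univ : Finset (Finset X)),
      ∑ x ∈ Rt, (if x ∈ S then g S * p ^ S.card else 0)
        ≤ (if S = ∅ then 0 else g S * p ^ S.card) := by
    intro S _
    by_cases hS0 : S = ∅
    · subst hS0
      simp
    · rw [if_neg hS0]
      by_cases hgS : g S = 0
      · simp [hgS]
      · rw [← Finset.sum_filter, Finset.sum_const, nsmul_eq_mul]
        have hcard : (Rt.filter (fun x => x ∈ S)).card ≤ 1 := by
          apply Finset.card_le_one.mpr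
          intro a ha b hb
          obtain ⟨ha1, ha2⟩ := Finset.mem_filter.mp ha
          obtain ⟨hb1, hb2⟩ := Finset.mem_filter.mp hb
          exact hR2 S hgS a ha1 b hb1 ha2 hb2
        have hnn : 0 ≤ g S * p ^ S.card := mul_nonneg (hg S) (pow_nonneg hp0 _)
        have hc : ((Rt.filter (fun x => x ∈ S)).card : ℝ) ≤ 1 := by exact_mod_cast hcard
        nlinarith
  have h3 : g ∅ + ∑ S : Finset X, (if S = ∅ then 0 else g S * p ^ S.card) = Mass g p := by
    unfold Mass
    have h4 : g ∅ = ∑ S : Finset X, (if S = ∅ then g ∅ else 0) := by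
      rw [Finset.sum_ite_eq' Finset.univ ∅ (fun _ => g ∅), if_pos (Finset.mem_univ _)]
    rw [h4, ← Finset.sum_add_distrib]
    apply Finset.sum_congr rfl
    intro S _
    by_cases hS0 : S = ∅
    · subst hS0
      simp
    · simp [hS0]
  have h5 := Finset.sum_le_sum h2
  linarith

omit [Fintype X] [DecidableEq X] in
theorem sum_types_cons (Tc : Finset (List ℕ)) (N : List ℕ → ℕ) (F : List ℕ → ℝ) :
    ∑ τ' ∈ insert [] (Tc.biUnion (fun τ => (Finset.Icc 1 (N τ)).image (fun k => k :: τ))), F τ'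
      = F [] + ∑ τ ∈ Tc, ∑ k ∈ Finset.Icc 1 (N τ), F (k :: τ) := by
  rw [Finset.sum_insert, Finset.sum_biUnion]
  · congr 1
    apply Finset.sum_congr rfl
    intro τ _
    rw [Finset.sum_image]
    intro k _ k' _ h
    exact (List.cons.inj h).1
  · intro τ _ τ' _ hne
    show Disjoint ((Finset.Icc 1 (N τ)).image (fun k => k :: τ))
      ((Finset.Icc 1 (N τ')).image (fun k => k :: τ'))
    rw [Finset.disjoint_left]
    intro l hl hl'
    obtain ⟨k, _, rfl⟩ := Finset.mem_image.mp hl
    obtain ⟨k', _, h⟩ := Finset.mem_image.mp hl'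
    exact hne (List.cons.inj h).2.symm
  · intro h
    obtain ⟨τ, _, h2⟩ := Finset.mem_biUnion.mp h
    obtain ⟨k, _, h3⟩ := Finset.mem_image.mp h2
    exact List.cons_ne_nil _ _ h3

end

end Vale.Agent.H9
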