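import Mathlib
import Vale.Agent.H9.TreeLink

namespace Vale.Agent.H9

open Finset

/-- Step: item systems for all links at the roots give an item system for the function. -/
theorem sys_step {X : Type*} [Fintype X] [DecidableEq X] [Nonempty X]
    (p : ℝ) (hp : 0 < p) (hp1 : p ≤ 1) (g : Finset X → ℝ) (hg : ∀ S, 0 ≤ g S)
    (Rt : Finset X)
    (hR0 : ∀ x ∈ Rt, ∃ S, g S ≠ 0 ∧ x ∈ S)
    (hR1 : ∀ S, g S ≠ 0 → S.Nonempty → ∃ x ∈ Rt, x ∈ S)
    (hR2 : ∀ S T, g S ≠ 0 → g T ≠ 0 → ∀ x ∈ Rt, ∀ y ∈ Rt, x ∈ S → y ∈ T → x ≠ y → Disjoint S T)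
    (types : X → Finset (List ℕ)) (items : X → List ℕ → Finset (Finset X × ℝ))
    (hsys : ∀ x ∈ Rt, IsSys p (link g x) (types x) (items x)) :
    ∃ (types' : Finset (List ℕ)) (items' : List ℕ → Finset (Finset X × ℝ)),
      IsSys p g types' items' := by
  classical
  have hT1 : ∀ x ∈ Rt, ∀ τ ∈ types x, ∀ k ∈ τ, 1 ≤ k := fun x hx => (hsys x hx).1
  have hT3 : ∀ x ∈ Rt, ∀ τ, ∀ i ∈ items x τ, 0 ≤ i.2 ∧ i.1.card = sg τ ∧
      ∀ y ∈ i.1, ∃ S, link g x S ≠ 0 ∧ y ∈ S := fun x hx => (hsys x hx).2.2.1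
  have hT4 : ∀ x ∈ Rt, ∀ H : Finset X, ∃ sel : List ℕ → Option (Finset X × ℝ),
      (∀ τ i, sel τ = some i → i ∈ items x τ ∧ i.1 ⊆ H) ∧
      Zsum (link g x) H ≤ ∑ τ ∈ types x, cred (sel τ) := fun x hx => (hsys x hx).2.2.2.1
  have hT5 : ∀ x ∈ Rt, ∀ τ, ∑ i ∈ items x τ, i.2 ≤ rho p τ * Mass (link g x) p :=
    fun x hx => (hsys x hx).2.2.2.2.1
  set Tc := Rt.biUnion types with hTc
  have hTc1 : ∀ τ ∈ Tc, ∀ k ∈ τ, 1 ≤ k := by
    intro τ hτ
    obtain ⟨x, hx, hτx⟩ := Finset.mem_biUnion.mp hτ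
    exact hT1 x hx τ hτx
  set pool : List ℕ → Finset (PE X) := fun τ => Rt.sigma (fun x => items x τ) with hpool
  have hpoolmem : ∀ τ a, a ∈ pool τ → a.1 ∈ Rt ∧ a.2 ∈ items a.1 τ :=
    fun τ a ha => Finset.mem_sigma.mp ha
  have hpiece : ∀ τ, ∀ a ∈ pool τ, ∀ y ∈ insert a.1 a.2.1, ∃ S, g S ≠ 0 ∧ a.1 ∈ S ∧ y ∈ S := by
    intro τ a ha y hy
    obtain ⟨ha1, ha2⟩ := hpoolmem τ a ha
    rcases Finset.mem_insert.mp hy with rfl | hy
    · obtain ⟨S, hS, hxS⟩ := hR0 _ ha1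
      exact ⟨S, hS, hxS, hxS⟩
    · obtain ⟨R, hR, hyR⟩ := (hT3 _ ha1 τ _ ha2).2.2 y hy
      obtain ⟨hxR, hgR⟩ := link_ne_zero g _ R hR
      exact ⟨insert a.1 R, hgR, Finset.mem_insert_self _ _, Finset.mem_insert_of_mem hyR⟩
  have hnotmem : ∀ τ, ∀ a ∈ pool τ, a.1 ∉ a.2.1 := by
    intro τ a ha hmem
    obtain ⟨ha1, ha2⟩ := hpoolmem τ a ha
    obtain ⟨R, hR, hyR⟩ := (hT3 _ ha1 τ _ ha2).2.2 _ hmem
    exact (link_ne_zero g _ R hR).1 hyR
  have hw : ∀ τ, ∀ a ∈ pool τ, 0 ≤ a.2.2 :=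
    fun τ a ha => (hT3 _ (hpoolmem τ a ha).1 τ _ (hpoolmem τ a ha).2).1
  have hsize : ∀ τ, ∀ a ∈ pool τ, (insert a.1 a.2.1).card = 1 + sg τ := by
    intro τ a ha
    rw [Finset.card_insert_of_notMem (hnotmem τ a ha),
      (hT3 _ (hpoolmem τ a ha).1 τ _ (hpoolmem τ a ha).2).2.1, add_comm]
  have hdisj : ∀ τ, ∀ a ∈ pool τ, ∀ a' ∈ pool τ, a.1 ≠ a'.1 →
      Disjoint (insert a.1 a.2.1) (insert a'.1 a'.2.1) := by
    intro τ a ha a' ha' hne
    rw [Finset.disjoint_left]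
    intro y hy hy'
    obtain ⟨S, hS, hxS, hyS⟩ := hpiece τ a ha y hy
    obtain ⟨S', hS', hxS', hyS'⟩ := hpiece τ a' ha' y hy'
    have h1 := hR2 S S' hS hS' a.1 (hpoolmem τ a ha).1 a'.1 (hpoolmem τ a' ha').1 hxS hxS' hne
    exact Finset.disjoint_left.mp h1 hyS hyS'
  have hcons := fun τ => consolidate (gam p τ) (1 + sg τ) (pool τ) (hw τ) (hsize τ) (hdisj τ)
  choose It hIt1 hIt2 hIt3 hIt4 using hcons
  set N : List ℕ → ℕ := fun τ => (pool τ).card with hN
  set W : List ℕ → ℝ := fun τ => ∑ a ∈ pool τ, a.2.2 with hW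
  have hW0 : ∀ τ, 0 ≤ W τ := fun τ => Finset.sum_nonneg (fun a ha => hw τ a ha)
  set ML : ℝ := ∑ x ∈ Rt, Mass (link g x) p with hML
  have hML0 : 0 ≤ ML :=
    Finset.sum_nonneg (fun x _ => mass_nonneg _ (link_nonneg g hg x) p hp.le)
  have hWle : ∀ τ, W τ ≤ rho p τ * ML := by
    intro τ
    simp only [hW, hpool, hML]
    rw [Finset.sum_sigma, Finset.mul_sum]
    exact Finset.sum_le_sum (fun x hx => hT5 x hx τ)
  have hMass : g ∅ + p * ML ≤ Mass g p := by
    apply mass_links_le g hg p hp.le Rt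
    intro S hS x hx y hy hxS hyS
    by_contra hne
    have h1 := hR2 S S hS hS x hx y hy hxS hyS hne
    exact Finset.disjoint_left.mp h1 hxS hxS
  have hM0 : 0 ≤ Mass g p := mass_nonneg g hg p hp.le
  have hgam0 : ∀ τ, (0 : ℝ) < (gam p τ : ℝ) := by
    intro τ
    have := (rho_gam_ge p hp hp1 τ).2
    exact_mod_cast (by omega : 0 < gam p τ)
  set Mp : ℝ := g ∅ + ∑ τ ∈ Tc, (1 / (gam p τ : ℝ)) * W τ with hMp
  have hMp0 : 0 ≤ Mp := by
    have h1 : 0 ≤ ∑ τ ∈ Tc, (1 / (gam p τ : ℝ)) * W τ :=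
      Finset.sum_nonneg (fun τ _ => mul_nonneg (div_nonneg zero_le_one (hgam0 τ).le) (hW0 τ))
    have h2 := hg ∅
    linarith
  have hMple : Mp ≤ Mass g p := by
    have h1 : ∀ τ ∈ Tc, (1 / (gam p τ : ℝ)) * W τ ≤ p * ML / 2 * wt τ := by
      intro τ _
      have hg1 := gam_ge p τ
      have hρ := (rho_gam_ge p hp hp1 τ).1
      have hwt := wt_pos τ
      have hpw : 0 < p * wt τ := mul_pos hp hwt
      rw [div_le_iff₀ hpw] at hg1
      rw [one_div, inv_mul_le_iff₀ (hgam0 τ)]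
      have h3 := hWle τ
      have h4 : rho p τ * ML ≤ (gam p τ : ℝ) * (p * wt τ) / 2 * ML :=
        mul_le_mul_of_nonneg_right (by linarith) hML0
      calc W τ ≤ rho p τ * ML := h3
        _ ≤ (gam p τ : ℝ) * (p * wt τ) / 2 * ML := h4
        _ = (gam p τ : ℝ) * (p * ML / 2 * wt τ) := by ring
    have h2 : ∑ τ ∈ Tc, (1 / (gam p τ : ℝ)) * W τ ≤ ∑ τ ∈ Tc, p * ML / 2 * wt τ :=
      Finset.sum_le_sum h1
    rw [← Finset.mul_sum] at h2
    have h3 := wt_sum_le Tc hTc1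
    have h4 : 0 ≤ p * ML / 2 := by positivity
    have h5 : p * ML / 2 * ∑ τ ∈ Tc, wt τ ≤ p * ML / 2 * 2 := mul_le_mul_of_nonneg_left h3 h4
    simp only [hMp]
    linarith
  set types' : Finset (List ℕ) :=
    insert [] (Tc.biUnion (fun τ => (Finset.Icc 1 (N τ)).image (fun k => k :: τ))) with htypes'
  set items' : List ℕ → Finset (Finset X × ℝ) :=
    listCases {(∅, Mp)} (fun τ k => if τ ∈ Tc ∧ 1 ≤ k ∧ k ≤ N τ then It τ k else ∅) with hitems'
  have hnil : items' [] = {(∅, Mp)} := rfl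
  have hcns : ∀ k τ, items' (k :: τ) = if τ ∈ Tc ∧ 1 ≤ k ∧ k ≤ N τ then It τ k else ∅ :=
    fun _ _ => rfl
  have hmemtypes : ∀ k τ, τ ∈ Tc → 1 ≤ k → k ≤ N τ → k :: τ ∈ types' := by
    intro k τ hτ hk1 hk2
    apply Finset.mem_insert_of_mem
    apply Finset.mem_biUnion.mpr
    exact ⟨τ, hτ, Finset.mem_image.mpr ⟨k, Finset.mem_Icc.mpr ⟨hk1, hk2⟩, rfl⟩⟩
  refine ⟨types', items', ?_, ?_, ?_, ?_, ?_, ?_⟩
  · intro τ' hτ' k hk
    rcases Finset.mem_insert.mp hτ' with rfl | hτ'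
    · simp at hk
    · obtain ⟨τ, hτ, h2⟩ := Finset.mem_biUnion.mp hτ'
      obtain ⟨k0, hk0, rfl⟩ := Finset.mem_image.mp h2
      rcases List.mem_cons.mp hk with rfl | hk
      · exact (Finset.mem_Icc.mp hk0).1
      · exact hTc1 τ hτ k hk
  · intro τ' hτ'
    rcases τ' with _ | ⟨k, τ⟩
    · exact absurd (Finset.mem_insert_self _ _) hτ'
    · rw [hcns]
      by_cases hc : τ ∈ Tc ∧ 1 ≤ k ∧ k ≤ N τ
      · exact absurd (hmemtypes k τ hc.1 hc.2.1 hc.2.2) hτ'
      · rw [if_neg hc]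
  · intro τ' i hi
    rcases τ' with _ | ⟨k, τ⟩
    · rw [hnil] at hi
      have hi' := Finset.mem_singleton.mp hi
      subst hi'
      refine ⟨hMp0, rfl, ?_⟩
      intro y hy
      simp at hy
    · rw [hcns] at hi
      by_cases hc : τ ∈ Tc ∧ 1 ≤ k ∧ k ≤ N τ
      · rw [if_pos hc] at hi
        obtain ⟨h1, h2, h3⟩ := hIt1 τ k i hi
        refine ⟨h1, h2, ?_⟩
        intro y hy
        obtain ⟨a, ha, hya⟩ := h3 y hy
        obtain ⟨S, hS, _, hyS⟩ := hpiece τ a ha y hya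
        exact ⟨S, hS, hyS⟩
      · rw [if_neg hc] at hi
        simp at hi
  · intro H
    have hsel : ∀ x, ∃ sel : List ℕ → Option (Finset X × ℝ), x ∈ Rt →
        ((∀ τ i, sel τ = some i → i ∈ items x τ ∧ i.1 ⊆ H) ∧
          Zsum (link g x) H ≤ ∑ τ ∈ types x, cred (sel τ)) := by
      intro x
      by_cases hx : x ∈ Rt
      · obtain ⟨sel, h1, h2⟩ := hT4 x hx H
        exact ⟨sel, fun _ => ⟨h1, h2⟩⟩
      · exact ⟨fun _ => none, fun h => absurd h hx⟩
    choose selx hselx using hsel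
    have hcred0 : ∀ x ∈ Rt, ∀ τ, 0 ≤ cred (selx x τ) := by
      intro x hx τ
      cases h : selx x τ with
      | none => exact le_rfl
      | some i => exact (hT3 x hx τ i ((hselx x hx).1 τ i h).1).1
    set Sel : List ℕ → Finset (PE X) := fun τ =>
      (pool τ).filter (fun a => a.1 ∈ H ∧ selx a.1 τ = some a.2) with hSel
    have hSel1 : ∀ τ, Sel τ ⊆ pool τ := fun τ => Finset.filter_subset _ _
    have hSel2 : ∀ τ, ∀ a ∈ Sel τ, insert a.1 a.2.1 ⊆ H := by
      intro τ a ha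
      obtain ⟨haP, haH, hasel⟩ := Finset.mem_filter.mp ha
      have h1 := ((hselx a.1 (hpoolmem τ a haP).1).1 τ a.2 hasel).2
      exact Finset.insert_subset haH h1
    have hSel3 : ∀ τ, ∀ a ∈ Sel τ, ∀ a' ∈ Sel τ, a.1 = a'.1 → a = a' := by
      intro τ a ha a' ha' h
      obtain ⟨_, _, hasel⟩ := Finset.mem_filter.mp ha
      obtain ⟨_, _, hasel'⟩ := Finset.mem_filter.mp ha'
      rw [h, hasel'] at hasel
      exact Sigma.ext h (heq_of_eq (Option.some.inj hasel).symm)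
    have hsex := fun τ => hIt4 τ H (Sel τ) (hSel1 τ) (hSel2 τ) (hSel3 τ)
    choose s hs1 hs2 using hsex
    set sel' : List ℕ → Option (Finset X × ℝ) :=
      listCases (some (∅, Mp)) (fun τ k => if τ ∈ Tc then s τ k else none) with hsel'
    have hsnil : sel' [] = some (∅, Mp) := rfl
    have hscns : ∀ k τ, sel' (k :: τ) = if τ ∈ Tc then s τ k else none := fun _ _ => rfl
    refine ⟨sel', ?_, ?_⟩
    · intro τ' i h
      rcases τ' with _ | ⟨k, τ⟩
      · rw [hsnil] at h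
        have h' := Option.some.inj h
        subst h'
        rw [hnil]
        exact ⟨Finset.mem_singleton_self _, Finset.empty_subset _⟩
      · rw [hscns] at h
        by_cases hτ : τ ∈ Tc
        · rw [if_pos hτ] at h
          obtain ⟨h1, h2, h3, h4⟩ := hs1 τ k i h
          rw [hcns, if_pos ⟨hτ, h1, h2⟩]
          exact ⟨h3, h4⟩
        · rw [if_neg hτ] at h
          exact absurd h (by simp)
    · rw [sum_types_cons Tc N (fun τ' => cred (sel' τ'))]
      have hA1 := zsum_le_links g hg Rt hR1 H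
      have hA2 : ∀ x ∈ Rt.filter (fun x => x ∈ H),
          Zsum (link g x) H ≤ ∑ τ ∈ Tc, cred (selx x τ) := by
        intro x hx
        have hxRt := (Finset.mem_filter.mp hx).1
        refine ((hselx x hxRt).2).trans ?_
        apply Finset.sum_le_sum_of_subset_of_nonneg
        · exact Finset.subset_biUnion_of_mem types hxRt
        · intro τ _ _
          exact hcred0 x hxRt τ
      have hA4 : ∀ τ, ∑ x ∈ Rt.filter (fun x => x ∈ H), cred (selx x τ)
          = ∑ a ∈ Sel τ, a.2.2 := by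
        intro τ
        simp only [hSel, hpool]
        rw [Finset.sum_filter, Finset.sum_filter, Finset.sum_sigma]
        apply Finset.sum_congr rfl
        intro x hx
        by_cases hxH : x ∈ H
        · simp only [hxH, if_true, true_and]
          cases h : selx x τ with
          | none => simp [cred_none]
          | some i0 =>
            have hi0 := ((hselx x hx).1 τ i0 h).1
            simp only [Option.some.injEq, cred_some]
            rw [Finset.sum_ite_eq, if_pos hi0]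
        · simp [hxH]
      have hA5 : ∀ τ, ∑ a ∈ Sel τ, a.2.2
          ≤ (1 / (gam p τ : ℝ)) * W τ + ∑ k ∈ Finset.Icc 1 (N τ), cred (s τ k) := by
        intro τ
        have h1 := hs2 τ
        have h2 := hgam0 τ
        rw [one_div, ← sub_le_iff_le_add, le_inv_mul_iff₀ h2]
        simp only [hW, hN]
        linarith
      have hB : ∑ τ ∈ Tc, ∑ k ∈ Finset.Icc 1 (N τ), cred (sel' (k :: τ))
          = ∑ τ ∈ Tc, ∑ k ∈ Finset.Icc 1 (N τ), cred (s τ k) := by
        apply Finset.sum_congr rfl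
        intro τ hτ
        apply Finset.sum_congr rfl
        intro k _
        rw [hscns, if_pos hτ]
      have hC : cred (sel' []) = Mp := rfl
      show Zsum g H ≤ cred (sel' []) + ∑ τ ∈ Tc, ∑ k ∈ Finset.Icc 1 (N τ), cred (sel' (k :: τ))
      rw [hB, hC]
      have hD : ∑ x ∈ Rt.filter (fun x => x ∈ H), Zsum (link g x) H
          ≤ ∑ τ ∈ Tc, ((1 / (gam p τ : ℝ)) * W τ + ∑ k ∈ Finset.Icc 1 (N τ), cred (s τ k)) := by
        calc ∑ x ∈ Rt.filter (fun x => x ∈ H), Zsum (link g x) H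
            ≤ ∑ x ∈ Rt.filter (fun x => x ∈ H), ∑ τ ∈ Tc, cred (selx x τ) :=
              Finset.sum_le_sum hA2
          _ = ∑ τ ∈ Tc, ∑ x ∈ Rt.filter (fun x => x ∈ H), cred (selx x τ) := Finset.sum_comm
          _ = ∑ τ ∈ Tc, ∑ a ∈ Sel τ, a.2.2 := Finset.sum_congr rfl (fun τ _ => hA4 τ)
          _ ≤ _ := Finset.sum_le_sum (fun τ _ => hA5 τ)
      rw [Finset.sum_add_distrib] at hD
      simp only [hMp]
      linarith
  · intro τ'
    rcases τ' with _ | ⟨k, τ⟩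
    · rw [hnil, Finset.sum_singleton]
      have h1 : rho p [] = 1 := rfl
      rw [h1, one_mul]
      exact hMple
    · rw [hcns]
      have hρ := (rho_gam_ge p hp hp1 (k :: τ)).1
      by_cases hc : τ ∈ Tc ∧ 1 ≤ k ∧ k ≤ N τ
      · rw [if_pos hc]
        have h1 := hIt2 τ k hc.2.1
        have h2 := hWle τ
        have hC0 : (0 : ℝ) ≤ ((gam p τ * k).choose (k - 1) : ℝ) := Nat.cast_nonneg _
        have hρτ := (rho_gam_ge p hp hp1 τ).1
        have h3 : ML ≤ Mass g p / p := by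
          rw [le_div_iff₀ hp]
          have := hg ∅
          linarith
        rw [rho_cons]
        calc ∑ i ∈ It τ k, i.2 ≤ ((gam p τ * k).choose (k - 1) : ℝ) * W τ := h1
          _ ≤ ((gam p τ * k).choose (k - 1) : ℝ) * (rho p τ * ML) :=
              mul_le_mul_of_nonneg_left h2 hC0
          _ ≤ ((gam p τ * k).choose (k - 1) : ℝ) * (rho p τ * (Mass g p / p)) := by
              apply mul_le_mul_of_nonneg_left _ hC0
              exact mul_le_mul_of_nonneg_left h3 (by linarith)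
          _ = ((gam p τ * k).choose (k - 1) : ℝ) * rho p τ / p * Mass g p := by ring
      · rw [if_neg hc, Finset.sum_empty]
        exact mul_nonneg (by linarith) hM0
  · intro τ'
    rcases τ' with _ | ⟨k, τ⟩
    · rw [hnil, Finset.card_singleton]
      exact le_rfl
    · rw [hcns]
      by_cases hc : τ ∈ Tc ∧ 1 ≤ k ∧ k ≤ N τ
      · rw [if_pos hc]
        exact hIt3 τ k
      · rw [if_neg hc, Finset.card_empty]
        exact Nat.zero_le _

end Vale.Agent.H9
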