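import Mathlib
import Vale.Agent.H9.TreeStep

namespace Vale.Agent.H9

open Finset

/-- Roots of a family with nested traces: every nonempty support set contains a root, and
support sets through distinct roots are disjoint. -/
theorem exists_roots {X : Type*} [Fintype X] [DecidableEq X] (g : Finset X → ℝ)
    (hCI : ∀ S T U, g S ≠ 0 → g T ≠ 0 → g U ≠ 0 → S ∩ T ⊆ S ∩ U ∨ S ∩ U ⊆ S ∩ T) :
    ∃ Rt : Finset X,
      (∀ x ∈ Rt, ∃ S, g S ≠ 0 ∧ x ∈ S) ∧
      (∀ S, g S ≠ 0 → S.Nonempty → ∃ x ∈ Rt, x ∈ S) ∧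
      (∀ S T, g S ≠ 0 → g T ≠ 0 → ∀ x ∈ Rt, ∀ y ∈ Rt, x ∈ S → y ∈ T → x ≠ y →
        Disjoint S T) := by
  classical
  set core : Finset X → Finset X := fun S =>
    S.filter (fun y => ∀ T, g T ≠ 0 → (S ∩ T).Nonempty → y ∈ T) with hcore
  have hcore_mem : ∀ S y, y ∈ core S ↔ y ∈ S ∧ ∀ T, g T ≠ 0 → (S ∩ T).Nonempty → y ∈ T := by
    intro S y
    simp only [hcore, Finset.mem_filter]
  have hcore_sub : ∀ S T, g S ≠ 0 → g T ≠ 0 → (S ∩ T).Nonempty → core S ⊆ core T := by
    intro S T hS hT hST y hy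
    obtain ⟨hyS, hyall⟩ := (hcore_mem S y).mp hy
    have hyT : y ∈ T := hyall T hT hST
    refine (hcore_mem T y).mpr ⟨hyT, ?_⟩
    intro U hU hTU
    rcases hCI T S U hT hS hU with h | h
    · exact (Finset.mem_inter.mp (h (Finset.mem_inter.mpr ⟨hyT, hyS⟩))).2
    · obtain ⟨w, hw⟩ := hTU
      have hw' := Finset.mem_inter.mp (h hw)
      have hwU := (Finset.mem_inter.mp hw).2
      exact hyall U hU ⟨w, Finset.mem_inter.mpr ⟨hw'.2, hwU⟩⟩
  have hcore_eq : ∀ S T, g S ≠ 0 → g T ≠ 0 → (S ∩ T).Nonempty → core S = core T := by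
    intro S T hS hT hST
    apply Finset.Subset.antisymm (hcore_sub S T hS hT hST)
    apply hcore_sub T S hT hS
    rw [Finset.inter_comm]
    exact hST
  have hcore_ne : ∀ S, g S ≠ 0 → S.Nonempty → (core S).Nonempty := by
    intro S hS hSne
    set cand := (Finset.univ : Finset (Finset X)).filter
      (fun U => g U ≠ 0 ∧ (S ∩ U).Nonempty) with hcand
    have hcand_ne : cand.Nonempty := by
      refine ⟨S, Finset.mem_filter.mpr ⟨Finset.mem_univ _, hS, ?_⟩⟩
      rw [Finset.inter_self]
      exact hSne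
    obtain ⟨U0, hU0, hmin⟩ := Finset.exists_min_image cand (fun U => (S ∩ U).card) hcand_ne
    obtain ⟨_, hU0g, hU0ne⟩ := Finset.mem_filter.mp hU0
    obtain ⟨y, hy⟩ := hU0ne
    refine ⟨y, (hcore_mem S y).mpr ⟨(Finset.mem_inter.mp hy).1, ?_⟩⟩
    intro U hU hSU
    rcases hCI S U0 U hS hU0g hU with h | h
    · exact (Finset.mem_inter.mp (h hy)).2
    · have hUc : U ∈ cand := Finset.mem_filter.mpr ⟨Finset.mem_univ _, hU, hSU⟩
      have h1 := hmin U hUc
      have h2 := Finset.eq_of_subset_of_card_le h h1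
      rw [← h2] at hy
      exact (Finset.mem_inter.mp hy).2
  set ν : X → ℕ := fun x => ((Fintype.equivFin X) x : ℕ) with hν
  have hνinj : ∀ x y, ν x = ν y → x = y := by
    intro x y h
    exact (Fintype.equivFin X).injective (Fin.val_injective h)
  set Rt : Finset X := (Finset.univ : Finset X).filter
    (fun x => ∃ S, g S ≠ 0 ∧ x ∈ core S ∧ ∀ y ∈ core S, ν x ≤ ν y) with hRt
  have hRt_mem : ∀ x, x ∈ Rt → ∃ S, g S ≠ 0 ∧ x ∈ core S ∧ ∀ y ∈ core S, ν x ≤ ν y := by
    intro x hx
    exact (Finset.mem_filter.mp hx).2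
  refine ⟨Rt, ?_, ?_, ?_⟩
  · intro x hx
    obtain ⟨S, hS, hxS, _⟩ := hRt_mem x hx
    exact ⟨S, hS, ((hcore_mem S x).mp hxS).1⟩
  · intro S hS hSne
    obtain ⟨x, hx, hmin⟩ := Finset.exists_min_image (core S) ν (hcore_ne S hS hSne)
    exact ⟨x, Finset.mem_filter.mpr ⟨Finset.mem_univ _, S, hS, hx, hmin⟩,
      ((hcore_mem S x).mp hx).1⟩
  · intro S T hS hT x hx y hy hxS hyT hne
    by_contra hnd
    obtain ⟨z, hzS, hzT⟩ := Finset.not_disjoint_iff.mp hnd
    obtain ⟨S', hS', hxS', hxmin⟩ := hRt_mem x hx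
    obtain ⟨T', hT', hyT', hymin⟩ := hRt_mem y hy
    have h1 : core S = core S' :=
      hcore_eq S S' hS hS' ⟨x, Finset.mem_inter.mpr ⟨hxS, ((hcore_mem S' x).mp hxS').1⟩⟩
    have h2 : core T = core T' :=
      hcore_eq T T' hT hT' ⟨y, Finset.mem_inter.mpr ⟨hyT, ((hcore_mem T' y).mp hyT').1⟩⟩
    have h3 : core S = core T := hcore_eq S T hS hT ⟨z, Finset.mem_inter.mpr ⟨hzS, hzT⟩⟩
    have h4 : core S' = core T' := by rw [← h1, h3, h2]
    have h5 : ν x ≤ ν y := hxmin y (by rw [h4]; exact hyT')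
    have h6 : ν y ≤ ν x := hymin x (by rw [← h4]; exact hxS')
    exact hne (hνinj x y (le_antisymm h5 h6))

theorem link_nested {X : Type*} [DecidableEq X] (g : Finset X → ℝ)
    (hCI : ∀ S T U, g S ≠ 0 → g T ≠ 0 → g U ≠ 0 → S ∩ T ⊆ S ∩ U ∨ S ∩ U ⊆ S ∩ T) (x : X) :
    ∀ S T U, link g x S ≠ 0 → link g x T ≠ 0 → link g x U ≠ 0 →
      S ∩ T ⊆ S ∩ U ∨ S ∩ U ⊆ S ∩ T := by
  intro S T U hS hT hU
  obtain ⟨hxS, hgS⟩ := link_ne_zero g x S hS
  obtain ⟨hxT, hgT⟩ := link_ne_zero g x T hT
  obtain ⟨hxU, hgU⟩ := link_ne_zero g x U hU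
  have key : ∀ A B : Finset X, insert x S ∩ insert x A ⊆ insert x S ∩ insert x B →
      S ∩ A ⊆ S ∩ B := by
    intro A B h y hy
    obtain ⟨hyS, hyA⟩ := Finset.mem_inter.mp hy
    have h1 : y ∈ insert x S ∩ insert x A :=
      Finset.mem_inter.mpr ⟨Finset.mem_insert_of_mem hyS, Finset.mem_insert_of_mem hyA⟩
    have h2 := (Finset.mem_inter.mp (h h1)).2
    rcases Finset.mem_insert.mp h2 with rfl | h3
    · exact absurd hyS hxS
    · exact Finset.mem_inter.mpr ⟨hyS, h3⟩
  rcases hCI (insert x S) (insert x T) (insert x U) hgS hgT hgU with h | h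
  · exact Or.inl (key T U h)
  · exact Or.inr (key U T h)

/-- Existence of item systems for families with nested traces. -/
theorem exists_sys {X : Type*} [Fintype X] [DecidableEq X] [Nonempty X]
    (p : ℝ) (hp : 0 < p) (hp1 : p ≤ 1) :
    ∀ (n : ℕ) (g : Finset X → ℝ), (∀ S, 0 ≤ g S) →
      (∀ S T U, g S ≠ 0 → g T ≠ 0 → g U ≠ 0 → S ∩ T ⊆ S ∩ U ∨ S ∩ U ⊆ S ∩ T) →
      (∀ S, g S ≠ 0 → S.card ≤ n) →
      ∃ (types : Finset (List ℕ)) (items : List ℕ → Finset (Finset X × ℝ)),
        IsSys p g types items := by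
  intro n
  induction n with
  | zero =>
    intro g hg _ hn
    apply sys_step p hp hp1 g hg ∅ (by simp) _ (by simp) (fun _ => ∅) (fun _ _ => ∅) (by simp)
    intro S hS hSne
    have h1 := hn S hS
    have h2 := Finset.card_pos.mpr hSne
    omega
  | succ n ih =>
    intro g hg hCI hn
    obtain ⟨Rt, hR0, hR1, hR2⟩ := exists_roots g hCI
    have hchild : ∀ x, ∃ (types : Finset (List ℕ)) (items : List ℕ → Finset (Finset X × ℝ)),
        IsSys p (link g x) types items := by
      intro x
      apply ih (link g x) (link_nonneg g hg x) (link_nested g hCI x)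
      intro R hR
      obtain ⟨hxR, hgR⟩ := link_ne_zero g x R hR
      have h1 := hn _ hgR
      rw [Finset.card_insert_of_notMem hxR] at h1
      omega
    choose types items hsys using hchild
    exact sys_step p hp hp1 g hg Rt hR0 hR1 hR2 types items (fun x _ => hsys x)

/-- Talagrand's fractional-versus-integral comparison, with the universal constant `64`, for
fractional covers whose support has nested traces: for all support sets `S`, `T`, `U` the
traces `S ∩ T` and `S ∩ U` are comparable. -/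
theorem talagrand_tree {X : Type*} [Fintype X] [DecidableEq X] (g : Finset X → ℝ) (p : ℝ)
    (hp0 : 0 ≤ p) (hp1 : p ≤ 1) (hg : ∀ S, 0 ≤ g S)
    (hCI : ∀ S T U, g S ≠ 0 → g T ≠ 0 → g U ≠ 0 → S ∩ T ⊆ S ∩ U ∨ S ∩ U ⊆ S ∩ T)
    (hcost : ∑ S, g S * p ^ S.card ≤ 1 / 2) :
    ∃ G : Finset (Finset X), ∑ T ∈ G, (p / 64) ^ T.card ≤ 1 / 2 ∧
      ∀ H : Finset X, 1 ≤ ∑ S ∈ H.powerset, g S → ∃ T ∈ G, T ⊆ H := by
  classical
  rcases eq_or_lt_of_le hp0 with hp | hp
  · subst hp
    refine ⟨Finset.univ.filter (fun S => S.Nonempty ∧ g S ≠ 0), ?_, ?_⟩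
    · have h0 : ∀ T ∈ Finset.univ.filter (fun S : Finset X => S.Nonempty ∧ g S ≠ 0),
          ((0 : ℝ) / 64) ^ T.card = 0 := by
        intro T hT
        have hne := (Finset.mem_filter.mp hT).2.1
        rw [zero_div, zero_pow (Finset.card_ne_zero.mpr hne)]
      rw [Finset.sum_eq_zero h0]
      norm_num
    · intro H hH
      by_contra hno
      have hg0 : g ∅ ≤ 1 / 2 := by
        have h1 : ∑ S : Finset X, g S * (0 : ℝ) ^ S.card = g ∅ := by
          rw [Finset.sum_eq_single ∅]
          · simp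
          · intro S _ hS
            rw [zero_pow (Finset.card_ne_zero.mpr (Finset.nonempty_iff_ne_empty.mpr hS)),
              mul_zero]
          · intro h
            exact absurd (Finset.mem_univ _) h
        linarith
      have h2 : ∑ S ∈ H.powerset, g S = g ∅ := by
        rw [Finset.sum_eq_single ∅]
        · intro S hS hS0
          by_contra hgS
          exact hno ⟨S, Finset.mem_filter.mpr ⟨Finset.mem_univ _,
            Finset.nonempty_iff_ne_empty.mpr hS0, hgS⟩, Finset.mem_powerset.mp hS⟩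
        · intro h
          exact absurd (Finset.empty_mem_powerset H) h
      linarith
  · have hMass : Mass g p ≤ 1 / 2 := hcost
    rcases isEmpty_or_nonempty X with hX | hX
    · refine ⟨∅, by norm_num, ?_⟩
      intro H hH
      exfalso
      have hH0 : H = ∅ := Finset.eq_empty_of_isEmpty H
      subst hH0
      rw [Finset.powerset_empty, Finset.sum_singleton] at hH
      have h1 : g ∅ * p ^ (∅ : Finset X).card ≤ ∑ S, g S * p ^ S.card :=
        Finset.single_le_sum (f := fun S : Finset X => g S * p ^ S.card)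
          (fun S _ => mul_nonneg (hg S) (pow_nonneg hp0 _)) (Finset.mem_univ ∅)
      rw [Finset.card_empty, pow_zero, mul_one] at h1
      linarith
    · obtain ⟨types, items, hsys⟩ := exists_sys p hp hp1 (Fintype.card X) g hg hCI
        (fun S _ => Finset.card_le_univ S)
      obtain ⟨hty, _, hit, hdom, hmass, hcount⟩ := hsys
      set D : Finset (Σ _ : List ℕ, Finset X × ℝ) :=
        (types.filter (fun τ => τ ≠ [])).sigma (fun τ => items τ) with hD
      set φ : (Σ _ : List ℕ, Finset X × ℝ) → Finset X := fun d => d.2.1 with hφ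
      have hq0 : 0 ≤ p / 64 := by positivity
      refine ⟨D.image φ, ?_, ?_⟩
      · have h1 : ∑ T ∈ D.image φ, (p / 64) ^ T.card ≤ ∑ d ∈ D, (p / 64) ^ (φ d).card :=
          Finset.sum_image_le_of_nonneg (fun u _ => pow_nonneg hq0 _)
        have h2 : ∑ d ∈ D, (p / 64) ^ (φ d).card
            = ∑ τ ∈ types.filter (fun τ => τ ≠ []), ∑ i ∈ items τ, (p / 64) ^ i.1.card := by
          rw [hD, Finset.sum_sigma]
        have h3 : ∀ τ ∈ types.filter (fun τ => τ ≠ []),
            ∑ i ∈ items τ, (p / 64) ^ i.1.card ≤ 16 / 3 * uv τ := by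
          intro τ hτ
          obtain ⟨hτt, hτne⟩ := Finset.mem_filter.mp hτ
          have h4 : ∑ i ∈ items τ, (p / 64) ^ i.1.card
              = ((items τ).card : ℝ) * (p / 64) ^ sg τ := by
            rw [Finset.sum_congr rfl (fun i hi => by rw [(hit τ i hi).2.1]),
              Finset.sum_const, nsmul_eq_mul]
          have h5 : ((items τ).card : ℝ) ≤ (Ncount p τ : ℝ) := by exact_mod_cast hcount τ
          have h6 : 0 ≤ (p / 64) ^ sg τ := pow_nonneg hq0 _
          rcases τ with _ | ⟨k, τ'⟩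
          · exact absurd rfl hτne
          · have h7 := cost_cons_le p hp hp1 τ' (fun k' hk' => hty _ hτt k' (by simp [hk']))
              k (hty _ hτt k (by simp))
            rw [h4]
            exact (mul_le_mul_of_nonneg_right h5 h6).trans h7
        have h8 := uv_sum_le types hty
        have h9 : ∑ τ ∈ types.filter (fun τ => τ ≠ []), ∑ i ∈ items τ, (p / 64) ^ i.1.card
            ≤ ∑ τ ∈ types.filter (fun τ => τ ≠ []), 16 / 3 * uv τ := Finset.sum_le_sum h3
        rw [← Finset.mul_sum] at h9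
        linarith
      · intro H hH
        by_contra hno
        obtain ⟨sel, hsel1, hsel2⟩ := hdom H
        have hM0 : 0 ≤ Mass g p := mass_nonneg g hg p hp0
        have h1 : ∀ τ ∈ types, cred (sel τ) ≤ (if τ = [] then 1 / 2 else 0) := by
          intro τ _
          cases h : sel τ with
          | none =>
            rw [cred_none]
            split_ifs <;> norm_num
          | some i =>
            obtain ⟨hi1, hi2⟩ := hsel1 τ i h
            by_cases hτ : τ = []
            · subst hτ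
              rw [if_pos rfl, cred_some]
              have h2 : i.2 ≤ ∑ i' ∈ items [], i'.2 :=
                Finset.single_le_sum (f := fun i' : Finset X × ℝ => i'.2)
                  (fun i' hi' => (hit [] i' hi').1) hi1
              have h3 := hmass []
              have h4 : rho p [] = 1 := rfl
              rw [h4, one_mul] at h3
              linarith
            · exfalso
              apply hno
              refine ⟨i.1, Finset.mem_image.mpr ⟨⟨τ, i⟩, ?_, rfl⟩, hi2⟩
              rw [hD]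
              exact Finset.mem_sigma.mpr ⟨Finset.mem_filter.mpr ⟨by assumption, hτ⟩, hi1⟩
        have h5 : ∑ τ ∈ types, cred (sel τ) ≤ ∑ τ ∈ types, (if τ = [] then (1 / 2 : ℝ) else 0) :=
          Finset.sum_le_sum h1
        rw [Finset.sum_ite_eq' types [] (fun _ => (1 / 2 : ℝ))] at h5
        have h6 : (if [] ∈ types then (1 / 2 : ℝ) else 0) ≤ 1 / 2 := by
          split_ifs <;> norm_num
        have h7 : Zsum g H = ∑ S ∈ H.powerset, g S := rfl
        linarith

end Vale.Agent.H9
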