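import Mathlib
import Vale.Agent.H9.TreeMain

namespace Vale.Agent.H9

open Finset

/-- For a weight function with nested traces and cost at most `1 / 2` at `p`, the family of
all `H` of weight at least `1` has a cover whose cost at `p / 64` is at most `3 / 4` of the
cost of the weight function. -/
theorem tree_cover_mass {X : Type*} [Fintype X] [DecidableEq X] (g : Finset X → ℝ) (p : ℝ)
    (hp : 0 < p) (hp1 : p ≤ 1) (hg : ∀ S, 0 ≤ g S)
    (hCI : ∀ S T U, g S ≠ 0 → g T ≠ 0 → g U ≠ 0 → S ∩ T ⊆ S ∩ U ∨ S ∩ U ⊆ S ∩ T)
    (hM : Mass g p ≤ 1 / 2) :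
    ∃ G : Finset (Finset X), ∑ T ∈ G, (p / 64) ^ T.card ≤ 3 / 4 * Mass g p ∧
      ∀ H : Finset X, 1 ≤ Zsum g H → ∃ T ∈ G, T ⊆ H := by
  classical
  have hM0 : 0 ≤ Mass g p := mass_nonneg g hg p hp.le
  rcases isEmpty_or_nonempty X with hX | hX
  · refine ⟨∅, by simpa using by positivity, ?_⟩
    intro H hH
    exfalso
    have hH0 : H = ∅ := Finset.eq_empty_of_isEmpty H
    subst hH0
    have h0 : Zsum g ∅ = g ∅ := by
      unfold Zsum
      rw [Finset.powerset_empty, Finset.sum_singleton]
    rw [h0] at hH
    have h1 : g ∅ * p ^ (∅ : Finset X).card ≤ ∑ S, g S * p ^ S.card :=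
      Finset.single_le_sum (f := fun S : Finset X => g S * p ^ S.card)
        (fun S _ => mul_nonneg (hg S) (pow_nonneg hp.le _)) (Finset.mem_univ ∅)
    rw [Finset.card_empty, pow_zero, mul_one] at h1
    have h2 : ∑ S, g S * p ^ S.card = Mass g p := rfl
    linarith
  · obtain ⟨types, items, hsys⟩ := exists_sys p hp hp1 (Fintype.card X) g hg hCI
      (fun S _ => Finset.card_le_univ S)
    obtain ⟨hty, _, hit, hdom, hmass, _⟩ := hsys
    set D : Finset (Σ _ : List ℕ, Finset X × ℝ) :=
      (types.filter (fun τ => τ ≠ [])).sigma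
        (fun τ => (items τ).filter (fun i => wt τ / 2 ≤ i.2)) with hD
    set φ : (Σ _ : List ℕ, Finset X × ℝ) → Finset X := fun d => d.2.1 with hφ
    have hq0 : 0 ≤ p / 64 := by positivity
    refine ⟨D.image φ, ?_, ?_⟩
    · have h1 : ∑ T ∈ D.image φ, (p / 64) ^ T.card ≤ ∑ d ∈ D, (p / 64) ^ (φ d).card :=
        Finset.sum_image_le_of_nonneg (fun u _ => pow_nonneg hq0 _)
      have h2 : ∑ d ∈ D, (p / 64) ^ (φ d).card
          = ∑ τ ∈ types.filter (fun τ => τ ≠ []),
              ∑ i ∈ (items τ).filter (fun i => wt τ / 2 ≤ i.2), (p / 64) ^ i.1.card := by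
        rw [hD, Finset.sum_sigma]
      have h3 : ∀ τ ∈ types.filter (fun τ => τ ≠ []),
          ∑ i ∈ (items τ).filter (fun i => wt τ / 2 ≤ i.2), (p / 64) ^ i.1.card
            ≤ Mass g p * (128 / 9) * uv τ := by
        intro τ hτ
        obtain ⟨hτt, hτne⟩ := Finset.mem_filter.mp hτ
        set Fl := (items τ).filter (fun i => wt τ / 2 ≤ i.2) with hFl
        have h4 : ∑ i ∈ Fl, (p / 64) ^ i.1.card = (Fl.card : ℝ) * (p / 64) ^ sg τ := by
          rw [Finset.sum_congr rfl (fun i hi => by
            rw [(hit τ i (Finset.mem_filter.mp hi).1).2.1]), Finset.sum_const, nsmul_eq_mul]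
        have hwt := wt_pos τ
        have h5 : (Fl.card : ℝ) * (wt τ / 2) ≤ rho p τ * Mass g p := by
          have h6 : (Fl.card : ℝ) * (wt τ / 2) ≤ ∑ i ∈ Fl, i.2 := by
            rw [← nsmul_eq_mul, ← Finset.sum_const]
            exact Finset.sum_le_sum (fun i hi => (Finset.mem_filter.mp hi).2)
          have h7 : ∑ i ∈ Fl, i.2 ≤ ∑ i ∈ items τ, i.2 :=
            Finset.sum_le_sum_of_subset_of_nonneg (Finset.filter_subset _ _)
              (fun i hi _ => (hit τ i hi).1)
          exact h6.trans (h7.trans (hmass τ))
        have h6 : 0 ≤ (p / 64) ^ sg τ := pow_nonneg hq0 _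
        have h7 := yv_le_uv p hp hp1 τ (hty τ hτt)
        have h8 : (Fl.card : ℝ) ≤ 2 * rho p τ * Mass g p / wt τ := by
          rw [le_div_iff₀ hwt]
          linarith
        have h9 : 2 * rho p τ * Mass g p / wt τ * (p / 64) ^ sg τ
            = Mass g p * (128 / 9) * yv p τ := by
          unfold yv
          field_simp
          ring
        rw [h4]
        calc (Fl.card : ℝ) * (p / 64) ^ sg τ
            ≤ 2 * rho p τ * Mass g p / wt τ * (p / 64) ^ sg τ :=
              mul_le_mul_of_nonneg_right h8 h6
          _ = Mass g p * (128 / 9) * yv p τ := h9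
          _ ≤ Mass g p * (128 / 9) * uv τ :=
              mul_le_mul_of_nonneg_left h7 (by positivity)
      have h8 := uv_sum_le types hty
      have h9 : ∑ τ ∈ types.filter (fun τ => τ ≠ []),
          ∑ i ∈ (items τ).filter (fun i => wt τ / 2 ≤ i.2), (p / 64) ^ i.1.card
          ≤ ∑ τ ∈ types.filter (fun τ => τ ≠ []), Mass g p * (128 / 9) * uv τ :=
        Finset.sum_le_sum h3
      rw [← Finset.mul_sum] at h9
      have h10 : Mass g p * (128 / 9) * ∑ τ ∈ types.filter (fun τ => τ ≠ []), uv τ
          ≤ Mass g p * (128 / 9) * (54 / 1088) :=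
        mul_le_mul_of_nonneg_left h8 (by positivity)
      linarith
    · intro H hH
      by_contra hno
      obtain ⟨sel, hsel1, hsel2⟩ := hdom H
      have hnil : cred (sel []) ≤ Mass g p := by
        cases h : sel [] with
        | none =>
          rw [cred_none]
          exact hM0
        | some i =>
          obtain ⟨hi1, _⟩ := hsel1 [] i h
          rw [cred_some]
          have h2 : i.2 ≤ ∑ i' ∈ items [], i'.2 :=
            Finset.single_le_sum (f := fun i' : Finset X × ℝ => i'.2)
              (fun i' hi' => (hit [] i' hi').1) hi1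
          have h3 := hmass []
          have h4 : rho p [] = 1 := rfl
          rw [h4, one_mul] at h3
          linarith
      have hlt : ∀ τ ∈ types.filter (fun τ => τ ≠ []), cred (sel τ) < wt τ / 2 := by
        intro τ hτ
        obtain ⟨hτt, hτne⟩ := Finset.mem_filter.mp hτ
        have hwt := wt_pos τ
        cases h : sel τ with
        | none =>
          rw [cred_none]
          linarith
        | some i =>
          obtain ⟨hi1, hi2⟩ := hsel1 τ i h
          rw [cred_some]
          by_contra hge
          replace hge := not_lt.mp hge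
          apply hno
          refine ⟨i.1, Finset.mem_image.mpr ⟨⟨τ, i⟩, ?_, rfl⟩, hi2⟩
          rw [hD]
          exact Finset.mem_sigma.mpr ⟨hτ, Finset.mem_filter.mpr ⟨hi1, hge⟩⟩
      have hwtsum : ∑ τ ∈ types.filter (fun τ => τ ≠ []), wt τ / 2 ≤ 1 / 2 := by
        have h1 := list_sum_ne_nil_le wt (fun k => 1 / 2 ^ (k + 1)) (1 / 2)
          (fun τ => (wt_pos τ).le) (fun k => by positivity)
          (fun k τ => by
            simp only [wt]
            rw [div_eq_mul_inv, mul_comm, one_div])
          (fun A hA => by
            have h1 := geom_pred_sum_le (1 / 2) (by norm_num) (by norm_num) A hA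
            have h2 : ∀ k ∈ A, (1 : ℝ) / 2 ^ (k + 1) = 1 / 4 * (1 / 2) ^ (k - 1) := by
              intro k hk
              obtain ⟨j, rfl⟩ : ∃ j, k = j + 1 := ⟨k - 1, by have := hA k hk; omega⟩
              simp only [Nat.add_sub_cancel]
              rw [one_div_pow, pow_succ, pow_succ]
              field_simp
              norm_num
            rw [Finset.sum_congr rfl h2, ← Finset.mul_sum]
            norm_num at h1 ⊢
            linarith)
          (by norm_num) (by norm_num) types hty
        simp only [wt] at h1
        norm_num at h1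
        rw [← Finset.sum_div]
        linarith
      have hsplit := Finset.sum_filter_add_sum_filter_not types (fun τ => τ = [])
        (fun τ => cred (sel τ))
      have hfirst : ∑ τ ∈ types.filter (fun τ => τ = []), cred (sel τ) ≤ Mass g p := by
        have hsub : types.filter (fun τ => τ = []) ⊆ {[]} := by
          intro τ hτ
          exact Finset.mem_singleton.mpr (Finset.mem_filter.mp hτ).2
        by_cases hmem : [] ∈ types
        · have heq : types.filter (fun τ => τ = []) = {[]} := by
            apply Finset.Subset.antisymm hsub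
            intro τ hτ
            rw [Finset.mem_singleton.mp hτ]
            exact Finset.mem_filter.mpr ⟨hmem, rfl⟩
          rw [heq, Finset.sum_singleton]
          exact hnil
        · have heq : types.filter (fun τ => τ = []) = ∅ := by
            apply Finset.eq_empty_of_forall_notMem
            intro τ hτ
            obtain ⟨h1, h2⟩ := Finset.mem_filter.mp hτ
            rw [h2] at h1
            exact hmem h1
          rw [heq, Finset.sum_empty]
          exact hM0
      by_cases hne : (types.filter (fun τ => ¬ τ = [])).Nonempty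
      · have h1 : ∑ τ ∈ types.filter (fun τ => ¬ τ = []), cred (sel τ)
            < ∑ τ ∈ types.filter (fun τ => ¬ τ = []), wt τ / 2 :=
          Finset.sum_lt_sum_of_nonempty hne hlt
        linarith
      · rw [Finset.not_nonempty_iff_eq_empty] at hne
        rw [hne, Finset.sum_empty] at hsplit
        linarith

end Vale.Agent.H9
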