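import Mathlib
import Vale.Agent.H9.TreeMass

namespace Vale.Agent.H9

open Finset

/-- Talagrand's comparison for fractional covers whose support splits into classes with nested
traces: if class `j` only has sets of size at least `s j` and `∑ j, (1 / lam) ^ s j ≤ 1`,
then the constant `64 * lam` works. -/
theorem talagrand_tree_classes {X : Type*} [Fintype X] [DecidableEq X]
    (g : Finset X → ℝ) (p lam : ℝ) (m : ℕ) (c : Finset X → ℕ) (s : ℕ → ℕ)
    (hp0 : 0 ≤ p) (hp1 : p ≤ 1) (hlam : 1 ≤ lam) (hg : ∀ S, 0 ≤ g S)
    (hc : ∀ S, g S ≠ 0 → S.Nonempty → c S < m ∧ s (c S) ≤ S.card)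
    (hkraft : ∑ j ∈ Finset.range m, (1 / lam) ^ s j ≤ 1)
    (hnest : ∀ S T U, g S ≠ 0 → g T ≠ 0 → g U ≠ 0 → c S = c T → c S = c U →
      S ∩ T ⊆ S ∩ U ∨ S ∩ U ⊆ S ∩ T)
    (hcost : ∑ S, g S * p ^ S.card ≤ 1 / 2) :
    ∃ G : Finset (Finset X), ∑ T ∈ G, (p / (64 * lam)) ^ T.card ≤ 1 / 2 ∧
      ∀ H : Finset X, 1 ≤ ∑ S ∈ H.powerset, g S → ∃ T ∈ G, T ⊆ H := by
  classical
  have hlam0 : 0 < lam := by linarith
  rcases eq_or_lt_of_le hp0 with hp | hp
  · subst hp
    refine ⟨Finset.univ.filter (fun S => S.Nonempty ∧ g S ≠ 0), ?_, ?_⟩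
    · have h0 : ∀ T ∈ Finset.univ.filter (fun S : Finset X => S.Nonempty ∧ g S ≠ 0),
          ((0 : ℝ) / (64 * lam)) ^ T.card = 0 := by
        intro T hT
        have hne := (Finset.mem_filter.mp hT).2.1
        rw [zero_div, zero_pow (Finset.card_ne_zero.mpr hne)]
      rw [Finset.sum_eq_zero h0]
      norm_num
    · intro H hH
      by_contra hno
      have hg0 : g ∅ ≤ 1 / 2 := by
        have h1 : ∑ S : Finset X, g S * (0 : ℝ) ^ S.card = g ∅ := by
          rw [Finset.sum_eq_single ∅]
          · simp
          · intro S _ hS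
            rw [zero_pow (Finset.card_ne_zero.mpr (Finset.nonempty_iff_ne_empty.mpr hS)),
              mul_zero]
          · intro h
            exact absurd (Finset.mem_univ _) h
        linarith
      have h2 : ∑ S ∈ H.powerset, g S = g ∅ := by
        rw [Finset.sum_eq_single ∅]
        · intro S hS hS0
          by_contra hgS
          exact hno ⟨S, Finset.mem_filter.mpr ⟨Finset.mem_univ _,
            Finset.nonempty_iff_ne_empty.mpr hS0, hgS⟩, Finset.mem_powerset.mp hS⟩
        · intro h
          exact absurd (Finset.empty_mem_powerset H) h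
      linarith
  · -- the main case p > 0
    set p' : ℝ := p / lam with hp'
    have hp'0 : 0 < p' := div_pos hp hlam0
    have hp'1 : p' ≤ 1 := by
      rw [hp', div_le_one hlam0]
      linarith
    have hq : p / (64 * lam) = p' / 64 := by
      rw [hp', div_div, mul_comm]
    have hil0 : 0 ≤ 1 / lam := by positivity
    have hil1 : 1 / lam ≤ 1 := by
      rw [div_le_one hlam0]
      exact hlam
    set gj : ℕ → Finset X → ℝ := fun j S => if S.Nonempty ∧ c S = j then g S else 0 with hgj
    have hgj0 : ∀ j S, 0 ≤ gj j S := by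
      intro j S
      simp only [hgj]
      split_ifs
      · exact hg S
      · exact le_rfl
    have hgjne : ∀ j S, gj j S ≠ 0 → S.Nonempty ∧ c S = j ∧ g S ≠ 0 := by
      intro j S h
      simp only [hgj] at h
      by_cases hcond : S.Nonempty ∧ c S = j
      · rw [if_pos hcond] at h
        exact ⟨hcond.1, hcond.2, h⟩
      · rw [if_neg hcond] at h
        exact absurd rfl h
    have hgjnest : ∀ j S T U, gj j S ≠ 0 → gj j T ≠ 0 → gj j U ≠ 0 →
        S ∩ T ⊆ S ∩ U ∨ S ∩ U ⊆ S ∩ T := by
      intro j S T U hS hT hU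
      obtain ⟨_, hcS, hgS⟩ := hgjne j S hS
      obtain ⟨_, hcT, hgT⟩ := hgjne j T hT
      obtain ⟨_, hcU, hgU⟩ := hgjne j U hU
      exact hnest S T U hgS hgT hgU (by rw [hcS, hcT]) (by rw [hcS, hcU])
    set mj : ℕ → ℝ := fun j => Mass (gj j) p with hmj
    have hmj0 : ∀ j, 0 ≤ mj j := fun j => mass_nonneg (gj j) (hgj0 j) p hp.le
    -- cost at the smaller probability
    have hF3 : ∀ j, Mass (gj j) p' ≤ (1 / lam) ^ s j * mj j := by
      intro j
      simp only [hmj]
      unfold Mass
      rw [Finset.mul_sum]
      apply Finset.sum_le_sum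
      intro S _
      by_cases hz : gj j S = 0
      · rw [hz]
        simp
      · obtain ⟨hSne, hcS, hgS⟩ := hgjne j S hz
        have h1 := (hc S hgS hSne).2
        rw [hcS] at h1
        have h2 : (1 / lam) ^ S.card ≤ (1 / lam) ^ s j := pow_le_pow_of_le_one hil0 hil1 h1
        have h3 : p' ^ S.card = p ^ S.card * (1 / lam) ^ S.card := by
          rw [hp', div_eq_mul_one_div, mul_pow]
        rw [h3]
        have h4 : 0 ≤ gj j S * p ^ S.card := mul_nonneg (hgj0 j S) (pow_nonneg hp.le _)
        calc gj j S * (p ^ S.card * (1 / lam) ^ S.card)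
            = (gj j S * p ^ S.card) * (1 / lam) ^ S.card := by ring
          _ ≤ (gj j S * p ^ S.card) * (1 / lam) ^ s j := mul_le_mul_of_nonneg_left h2 h4
          _ = (1 / lam) ^ s j * (gj j S * p ^ S.card) := by ring
    -- the parts add up to at most the whole
    have hF4 : g ∅ + ∑ j ∈ Finset.range m, mj j ≤ 1 / 2 := by
      have h1 : g ∅ + ∑ j ∈ Finset.range m, mj j
          = ∑ S : Finset X, ((if S = ∅ then g ∅ else 0)
              + ∑ j ∈ Finset.range m, gj j S * p ^ S.card) := by
        rw [Finset.sum_add_distrib, Finset.sum_ite_eq' Finset.univ ∅ (fun _ => g ∅),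
          if_pos (Finset.mem_univ _), Finset.sum_comm]
        rfl
      have h2 : ∀ S ∈ (Finset.univ : Finset (Finset X)),
          (if S = ∅ then g ∅ else 0) + ∑ j ∈ Finset.range m, gj j S * p ^ S.card
            ≤ g S * p ^ S.card := by
        intro S _
        by_cases hS0 : S = ∅
        · subst hS0
          have h3 : ∀ j ∈ Finset.range m, gj j ∅ * p ^ (∅ : Finset X).card = 0 := by
            intro j _
            simp [hgj]
          rw [Finset.sum_eq_zero h3]
          simp
        · rw [if_neg hS0, zero_add]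
          have hSne : S.Nonempty := Finset.nonempty_iff_ne_empty.mpr hS0
          have h3 : ∀ j ∈ Finset.range m, gj j S * p ^ S.card
              = if c S = j then g S * p ^ S.card else 0 := by
            intro j _
            simp only [hgj, hSne, true_and]
            split_ifs <;> simp
          rw [Finset.sum_congr rfl h3, Finset.sum_ite_eq]
          split_ifs
          · exact le_rfl
          · exact mul_nonneg (hg S) (pow_nonneg hp.le _)
      rw [h1]
      exact (Finset.sum_le_sum h2).trans hcost
    have hg0 := hg ∅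
    -- weight inside H splits
    have hF5 : ∀ H : Finset X, ∑ S ∈ H.powerset, g S
        ≤ g ∅ + ∑ j ∈ Finset.range m, Zsum (gj j) H := by
      intro H
      have h1 : g ∅ + ∑ j ∈ Finset.range m, Zsum (gj j) H
          = ∑ S ∈ H.powerset, ((if S = ∅ then g ∅ else 0)
              + ∑ j ∈ Finset.range m, gj j S) := by
        rw [Finset.sum_add_distrib, Finset.sum_ite_eq' H.powerset ∅ (fun _ => g ∅),
          if_pos (Finset.empty_mem_powerset H), Finset.sum_comm]
        rfl
      rw [h1]
      apply Finset.sum_le_sum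
      intro S _
      have hsum0 : 0 ≤ ∑ j ∈ Finset.range m, gj j S :=
        Finset.sum_nonneg (fun j _ => hgj0 j S)
      by_cases hS0 : S = ∅
      · subst hS0
        rw [if_pos rfl]
        linarith
      · rw [if_neg hS0, zero_add]
        have hSne : S.Nonempty := Finset.nonempty_iff_ne_empty.mpr hS0
        by_cases hgS : g S = 0
        · rw [hgS]
          exact hsum0
        · have hcS := (hc S hgS hSne).1
          have h2 := Finset.single_le_sum (f := fun j => gj j S) (fun j _ => hgj0 j S)
            (Finset.mem_range.mpr hcS)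
          have h3 : gj (c S) S = g S := by
            show (if S.Nonempty ∧ c S = c S then g S else 0) = g S
            rw [if_pos ⟨hSne, rfl⟩]
          rw [h3] at h2
          exact h2
    -- covers of the parts
    have hpart : ∀ j, ∃ Gj : Finset (Finset X),
        ∑ T ∈ Gj, (p' / 64) ^ T.card ≤ 3 / 8 * (1 / lam) ^ s j ∧
        ∀ H : Finset X, 0 < mj j → 2 * mj j ≤ Zsum (gj j) H → ∃ T ∈ Gj, T ⊆ H := by
      intro j
      have hpow0 : 0 ≤ (1 / lam) ^ s j := pow_nonneg hil0 _
      have hpow1 : (1 / lam) ^ s j ≤ 1 := pow_le_one₀ hil0 hil1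
      by_cases hm : 0 < mj j
      · set gh : Finset X → ℝ := fun S => gj j S / (2 * mj j) with hgh
        have hgh0 : ∀ S, 0 ≤ gh S := fun S => div_nonneg (hgj0 j S) (by positivity)
        have hghne : ∀ S, gh S ≠ 0 → gj j S ≠ 0 := by
          intro S h hz
          apply h
          simp only [hgh]
          rw [hz, zero_div]
        have hghmass : Mass gh p' = Mass (gj j) p' / (2 * mj j) := by
          unfold Mass
          rw [Finset.sum_div]
          apply Finset.sum_congr rfl
          intro S _
          simp only [hgh]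
          rw [div_mul_eq_mul_div]
        have hghz : ∀ H, Zsum gh H = Zsum (gj j) H / (2 * mj j) := by
          intro H
          unfold Zsum
          rw [Finset.sum_div]
        have hle : Mass gh p' ≤ (1 / lam) ^ s j / 2 := by
          rw [hghmass, div_le_div_iff₀ (by positivity) (by norm_num)]
          have := hF3 j
          nlinarith
        obtain ⟨Gj, hG1, hG2⟩ := tree_cover_mass gh p' hp'0 hp'1 hgh0
          (fun S T U hS hT hU => hgjnest j S T U (hghne S hS) (hghne T hT) (hghne U hU))
          (by linarith)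
        refine ⟨Gj, by linarith, ?_⟩
        intro H _ hH
        apply hG2 H
        rw [hghz, le_div_iff₀ (by positivity)]
        linarith
      · refine ⟨∅, ?_, ?_⟩
        · rw [Finset.sum_empty]
          positivity
        · intro H hm'
          exact absurd hm' hm
    choose Gj hGj1 hGj2 using hpart
    set D : Finset (Σ _ : ℕ, Finset X) := (Finset.range m).sigma (fun j => Gj j) with hD
    refine ⟨D.image (fun d => d.2), ?_, ?_⟩
    · rw [hq]
      have hq0 : 0 ≤ p' / 64 := by positivity
      have h1 : ∑ T ∈ D.image (fun d => d.2), (p' / 64) ^ T.card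
          ≤ ∑ d ∈ D, (p' / 64) ^ d.2.card :=
        Finset.sum_image_le_of_nonneg (fun u _ => pow_nonneg hq0 _)
      have h2 : ∑ d ∈ D, (p' / 64) ^ d.2.card
          = ∑ j ∈ Finset.range m, ∑ T ∈ Gj j, (p' / 64) ^ T.card := by
        rw [hD, Finset.sum_sigma]
      have h3 : ∑ j ∈ Finset.range m, ∑ T ∈ Gj j, (p' / 64) ^ T.card
          ≤ ∑ j ∈ Finset.range m, 3 / 8 * (1 / lam) ^ s j :=
        Finset.sum_le_sum (fun j _ => hGj1 j)
      rw [← Finset.mul_sum] at h3
      linarith
    · intro H hH
      by_contra hno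
      have hlt : ∀ j ∈ Finset.range m, 0 < mj j → Zsum (gj j) H < 2 * mj j := by
        intro j hj hm
        by_contra hge
        replace hge := not_lt.mp hge
        obtain ⟨T, hT, hTH⟩ := hGj2 j H hm hge
        exact hno ⟨T, Finset.mem_image.mpr ⟨⟨j, T⟩, Finset.mem_sigma.mpr ⟨hj, hT⟩, rfl⟩, hTH⟩
      have hzero : ∀ j, mj j = 0 → Zsum (gj j) H = 0 := by
        intro j hm
        have h1 : ∀ S ∈ (Finset.univ : Finset (Finset X)), gj j S * p ^ S.card = 0 :=
          (Finset.sum_eq_zero_iff_of_nonneg
            (fun S _ => mul_nonneg (hgj0 j S) (pow_nonneg hp.le _))).mp hm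
        unfold Zsum
        apply Finset.sum_eq_zero
        intro S _
        have h2 := h1 S (Finset.mem_univ _)
        rcases mul_eq_zero.mp h2 with h3 | h3
        · exact h3
        · exact absurd h3 (pow_ne_zero _ hp.ne')
      have hle : ∀ j ∈ Finset.range m, Zsum (gj j) H ≤ 2 * mj j := by
        intro j hj
        rcases eq_or_lt_of_le (hmj0 j) with h0 | hpos
        · rw [hzero j h0.symm, ← h0]
          norm_num
        · exact (hlt j hj hpos).le
      have h5 := hF5 H
      by_cases hex : ∃ j ∈ Finset.range m, 0 < mj j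
      · obtain ⟨j0, hj0, hm0⟩ := hex
        have h6 : ∑ j ∈ Finset.range m, Zsum (gj j) H < ∑ j ∈ Finset.range m, 2 * mj j :=
          Finset.sum_lt_sum hle ⟨j0, hj0, hlt j0 hj0 hm0⟩
        rw [← Finset.mul_sum] at h6
        linarith
      · have h6 : ∑ j ∈ Finset.range m, Zsum (gj j) H = 0 := by
          apply Finset.sum_eq_zero
          intro j hj
          apply hzero j
          by_contra hne
          exact hex ⟨j, hj, lt_of_le_of_ne (hmj0 j) (Ne.symm hne)⟩
        have h7 : 0 ≤ ∑ j ∈ Finset.range m, mj j := Finset.sum_nonneg (fun j _ => hmj0 j)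
        linarith

end Vale.Agent.H9
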